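import Vale.Agent.Lib.P028J.Main
import Mathlib.NumberTheory.Transcendental.Liouville.Measure

/-! Almost every shift: Diophantine type `1 + ε` for every `ε > 0`, so `β` arbitrarily close to `2/3`. -/

open scoped BigOperators Real
open Finset MeasureTheory Filter Set
open Vale.Agent.Lib.P028 Vale.Agent.Lib.P028E Vale.Agent.Lib.P028G Vale.Agent.Lib.P028H

namespace Vale.Agent.Lib.P028J

/-- Small denominators: irrationality gives a uniform lower bound. -/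
theorem small_den (γ : ℝ) (hirr : Irrational γ) (N : ℕ) :
    ∃ δ : ℝ, 0 < δ ∧ ∀ n : ℕ, 0 < n → n < N → ∀ a : ℤ, δ ≤ |(n : ℝ) * γ - a| := by
  induction N with
  | zero => exact ⟨1, one_pos, fun n _ hn => absurd hn (Nat.not_lt_zero _)⟩
  | succ N ih =>
    obtain ⟨δ, hδ, h⟩ := ih
    by_cases hN : 0 < N
    · have hNirr : Irrational ((N : ℝ) * γ) := by
        have : (N : ℚ) ≠ 0 := by exact_mod_cast hN.ne'
        simpa using hirr.ratCast_mul this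
      have hr : 0 < |(N : ℝ) * γ - round ((N : ℝ) * γ)| := by
        rw [abs_pos, sub_ne_zero]
        exact hNirr.ne_int _
      refine ⟨min δ |(N : ℝ) * γ - round ((N : ℝ) * γ)|, lt_min hδ hr, fun n hn hnN a => ?_⟩
      rcases Nat.lt_succ_iff_lt_or_eq.1 hnN with h1 | h1
      · exact (min_le_left _ _).trans (h n hn h1 a)
      · subst h1
        exact (min_le_right _ _).trans (round_le _ a)
    · refine ⟨δ, hδ, fun n hn hnN a => ?_⟩
      omega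

/-- From the Mathlib notion `LiouvilleWith` to the Diophantine type `p - 1`. -/
theorem dio_of_not_liouvilleWith (γ p : ℝ) (hirr : Irrational γ) (hp : 1 ≤ p) (h : ¬ LiouvilleWith p γ) :
    ∃ κ : ℝ, 0 < κ ∧ ∀ n : ℕ, 0 < n → ∀ a : ℤ, κ / (n : ℝ) ^ (p - 1) ≤ |(n : ℝ) * γ - a| := by
  unfold LiouvilleWith at h
  push Not at h
  have h1 := h 1
  obtain ⟨N, hN⟩ := eventually_atTop.1 h1
  obtain ⟨δ, hδ, hsmall⟩ := small_den γ hirr N
  refine ⟨min 1 δ, lt_min one_pos hδ, fun n hn a => ?_⟩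
  have hn1 : (1 : ℝ) ≤ n := by exact_mod_cast hn
  have hn0 : (0 : ℝ) < n := by linarith
  have hpow1 : (1 : ℝ) ≤ (n : ℝ) ^ (p - 1) := Real.one_le_rpow hn1 (by linarith)
  have hpow0 : (0 : ℝ) < (n : ℝ) ^ (p - 1) := by linarith
  rcases Nat.lt_or_ge n N with hnN | hnN
  · calc min 1 δ / (n : ℝ) ^ (p - 1) ≤ min 1 δ := div_le_self (le_of_lt (lt_min one_pos hδ)) hpow1
      _ ≤ δ := min_le_right _ _
      _ ≤ _ := hsmall n hn hnN a
  · have hne : γ ≠ (a : ℝ) / n := by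
      have := (irrational_iff_ne_rational γ).mp hirr a (n : ℤ) (by exact_mod_cast hn.ne')
      simpa using this
    have h2 := hN n hnN a hne
    have e1 : |γ - (a : ℝ) / n| = |(n : ℝ) * γ - a| / n := by
      have : γ - (a : ℝ) / n = ((n : ℝ) * γ - a) / n := by
        field_simp
      rw [this, abs_div, abs_of_pos hn0]
    rw [e1] at h2
    have e2 : (n : ℝ) ^ p = (n : ℝ) ^ (p - 1) * n := by
      rw [← Real.rpow_add_one hn0.ne']
      congr 1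
      ring
    rw [e2] at h2
    have h3 : 1 / (n : ℝ) ^ (p - 1) ≤ |(n : ℝ) * γ - a| := by
      have h4 : 1 / ((n : ℝ) ^ (p - 1) * n) * n ≤ |(n : ℝ) * γ - a| / n * n :=
        mul_le_mul_of_nonneg_right h2 hn0.le
      rw [div_mul_cancel₀ _ hn0.ne'] at h4
      have e3 : 1 / ((n : ℝ) ^ (p - 1) * n) * n = 1 / (n : ℝ) ^ (p - 1) := by
        field_simp
      rwa [e3] at h4
    calc min 1 δ / (n : ℝ) ^ (p - 1) ≤ 1 / (n : ℝ) ^ (p - 1) :=
          div_le_div_of_nonneg_right (min_le_left _ _) hpow0.le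
      _ ≤ _ := h3

/-- Only the part of `ψ` above `1/q` is constrained, with a power bound. As `P028H.union_nonLiouville`: `split_div`, `AA_erdos_vaaler`, `final_power_J` for `upper ψ`. -/
theorem union_power_J (γ κ w β' C₁ θ : ℝ) (hκ : 0 < κ) (hw : 1 ≤ w) (hθ0 : 0 < θ) (hθ1 : θ < 1 / 2)
    (hdio : ∀ n : ℕ, 0 < n → ∀ a : ℤ, κ / (n : ℝ) ^ w ≤ |(n : ℝ) * γ - a|)
    (hβ : (1 + w ^ 2) / (2 + w ^ 2) < β')
    (ψ : ℕ → ℝ) (h0 : ∀ q, 0 ≤ ψ q) (A : ℝ) (hA : 1 ≤ A) (q₀ : ℕ)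
    (hmono : ∀ q r : ℕ, q₀ ≤ q → 1 / (q : ℝ) < ψ q → 1 / (r : ℝ) < ψ r → 2 * q ≤ r →
      ψ r * (q : ℝ) ^ θ ≤ A * ψ q * (r : ℝ) ^ θ)
    (hsize : ∀ q, q₀ ≤ q → 1 / (q : ℝ) < ψ q → ψ q ≤ C₁ * (q : ℝ) ^ (-β'))
    (hdiv : ¬ Summable (fun q : ℕ => (Nat.totient q : ℝ) / q * ψ q)) :
    ∀ᵐ x : ℝ, ∃ᶠ q : ℕ in atTop, ∃ a : ℤ, |(q : ℝ) * x - a - γ| < ψ q := by
  rcases split_div h0 hdiv with h | h
  · exact Vale.Agent.Results.P028.AA_erdos_vaaler.result γ ψ h0 (Or.inl h)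
  · have key := final_power_J γ κ w β' (max C₁ 0) θ hκ hw hθ0 hθ1 hdio hβ (upper ψ) (upper_nonneg h0) A hA q₀
      (fun q r hq hq' hr' hqr => by
        obtain ⟨h1, e1⟩ := upper_pos hq'
        obtain ⟨h2, e2⟩ := upper_pos hr'
        rw [e1, e2]
        exact hmono q r hq h1 h2 hqr)
      (fun q hq => by
        have hp : 0 ≤ (q : ℝ) ^ (-β') := Real.rpow_nonneg (Nat.cast_nonneg _) _
        by_cases hq' : 0 < upper ψ q
        · obtain ⟨h1, e1⟩ := upper_pos hq'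
          rw [e1]
          exact (hsize q hq h1).trans (mul_le_mul_of_nonneg_right (le_max_left _ _) hp)
        · have : upper ψ q = 0 := le_antisymm (not_lt.1 hq') (upper_nonneg h0 q)
          rw [this]
          exact mul_nonneg (le_max_right _ _) hp) h
    exact Vale.Agent.Lib.P028E.ae_mono (upper_le h0) key

/-- For `β > 2/3` there is `w > 1` with `(1 + w²)/(2 + w²) < β`. -/
theorem exists_w (β : ℝ) (hβ : 2 / 3 < β) : ∃ w : ℝ, 1 < w ∧ (1 + w ^ 2) / (2 + w ^ 2) < β := by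
  have hcont : Filter.Tendsto (fun w : ℝ => (1 + w ^ 2) / (2 + w ^ 2)) (nhdsWithin 1 (Set.Ioi 1))
      (nhds ((1 + 1 ^ 2) / (2 + 1 ^ 2))) := by
    have : ContinuousAt (fun w : ℝ => (1 + w ^ 2) / (2 + w ^ 2)) 1 := by
      apply ContinuousAt.div
      · fun_prop
      · fun_prop
      · norm_num
    exact this.tendsto.mono_left nhdsWithin_le_nhds
  have h1 : ((1 + 1 ^ 2) / (2 + 1 ^ 2) : ℝ) < β := by
    norm_num
    linarith
  have hev := hcont.eventually (gt_mem_nhds h1)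
  have hev2 : ∀ᶠ w in nhdsWithin (1 : ℝ) (Set.Ioi 1), 1 < w := eventually_mem_nhdsWithin
  obtain ⟨w, hw1, hw2⟩ := (hev.and hev2).exists
  exact ⟨w, hw2, hw1⟩

/-- Almost every shift. -/
theorem ae_main : ∀ᵐ γ : ℝ, ∀ β : ℝ, 2 / 3 < β → ∀ θ : ℝ, 0 < θ → θ < 1 / 2 →
    ∀ (ψ : ℕ → ℝ) (A C₁ : ℝ) (q₀ : ℕ), (∀ q, 0 ≤ ψ q) → 1 ≤ A →
      (∀ q r : ℕ, q₀ ≤ q → 1 / (q : ℝ) < ψ q → 1 / (r : ℝ) < ψ r → 2 * q ≤ r →
        ψ r * (q : ℝ) ^ θ ≤ A * ψ q * (r : ℝ) ^ θ) →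
      (∀ q, q₀ ≤ q → 1 / (q : ℝ) < ψ q → ψ q ≤ C₁ * (q : ℝ) ^ (-β)) →
      ¬ Summable (fun q : ℕ => (Nat.totient q : ℝ) / q * ψ q) →
      ∀ᵐ x : ℝ, ∃ᶠ q : ℕ in atTop, ∃ a : ℤ, |(q : ℝ) * x - a - γ| < ψ q := by
  have hirr : ∀ᵐ γ : ℝ, Irrational γ := by
    have := (Set.countable_range ((↑) : ℚ → ℝ)).ae_notMem (volume : Measure ℝ)
    exact this
  filter_upwards [hirr, ae_not_liouvilleWith] with γ hγ hL β hβ θ hθ0 hθ1 ψ A C₁ q₀ h0 hA hmono hsize hdiv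
  obtain ⟨w, hw1, hw2⟩ := exists_w β hβ
  obtain ⟨κ, hκ, hdio⟩ := dio_of_not_liouvilleWith γ (w + 1) hγ (by linarith) (hL (w + 1) (by linarith))
  have hdio' : ∀ n : ℕ, 0 < n → ∀ a : ℤ, κ / (n : ℝ) ^ w ≤ |(n : ℝ) * γ - a| := by
    intro n hn a
    have := hdio n hn a
    rwa [add_sub_cancel_right] at this
  exact union_power_J γ κ w β C₁ θ hκ hw1.le hθ0 hθ1 hdio' hw2 ψ h0 A hA q₀ hmono hsize hdiv

end Vale.Agent.Lib.P028J
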