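import Vale.Agent.Lib.P028J.Level
import Vale.Agent.Lib.P028H.Build

/-! From a function with slowly growing `ψ(q)/q^θ` bound to a chain of levels. -/

open scoped BigOperators Real
open Finset MeasureTheory
open Vale.Agent.Lib.P028 Vale.Agent.Lib.P028E Vale.Agent.Lib.P028G Vale.Agent.Lib.P028H

namespace Vale.Agent.Lib.P028J

/-- The arithmetic of the chain. Let `j < j'`, `2^j ≤ q`, `q' < 2^(j'+1)`, `(1/2)^(k'+1) < p'`, `p ≤ (1/2)^k`, `p' q^θ ≤ p q'^θ`.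
Then `(1/2)^(k'+1) 2^(jθ) < (1/2)^k 2^((j'+1)θ)`, i.e. `k + jθ < k' + 1 + (j'+1)θ`. So
(a) `2^k 2^(jθ) ≤ 4 * 2^k' 2^(j'θ)` as real numbers (`θ < 1/2`, `2^(1+θ) ≤ 4`);
(b) `2 j + k < 2 j' + k'`: with `Δ = j' - j ≥ 1`, `k' - k > -1 - θ (Δ + 1)`, so `2Δ + k' - k > 2Δ - 1 - (Δ + 1)/2 = (3Δ - 3)/2 ≥ 0`. -/
theorem chain_arith (θ p p' : ℝ) (hθ0 : 0 < θ) (hθ1 : θ < 1 / 2) (j j' k k' q q' : ℕ) (hjj : j < j') (hq : 2 ^ j ≤ q)
    (hq' : q' < 2 ^ (j' + 1)) (hp' : (1 / 2 : ℝ) ^ (k' + 1) < p') (hp : p ≤ (1 / 2 : ℝ) ^ k)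
    (h : p' * (q : ℝ) ^ θ ≤ p * (q' : ℝ) ^ θ) :
    (2 : ℝ) ^ k * ((2 : ℝ) ^ j) ^ θ ≤ 4 * ((2 : ℝ) ^ k' * ((2 : ℝ) ^ j') ^ θ) ∧ 2 * j + k < 2 * j' + k' := by
  have h2 : (0 : ℝ) < 2 := by norm_num
  have hXpos : (0 : ℝ) < ((2 : ℝ) ^ j) ^ θ := by positivity
  have hq1 : ((2 : ℝ) ^ j) ^ θ ≤ (q : ℝ) ^ θ := by
    apply Real.rpow_le_rpow (by positivity) _ hθ0.le
    exact_mod_cast hq
  have hq2 : (q' : ℝ) ^ θ ≤ ((2 : ℝ) ^ (j' + 1)) ^ θ := by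
    apply Real.rpow_le_rpow (by positivity) _ hθ0.le
    exact_mod_cast hq'.le
  have hp'pos : (0 : ℝ) < p' := lt_trans (by positivity) hp'
  have H : (1 / 2 : ℝ) ^ (k' + 1) * ((2 : ℝ) ^ j) ^ θ < (1 / 2 : ℝ) ^ k * ((2 : ℝ) ^ (j' + 1)) ^ θ := by
    calc (1 / 2 : ℝ) ^ (k' + 1) * ((2 : ℝ) ^ j) ^ θ < p' * ((2 : ℝ) ^ j) ^ θ :=
          mul_lt_mul_of_pos_right hp' hXpos
      _ ≤ p' * (q : ℝ) ^ θ := mul_le_mul_of_nonneg_left hq1 hp'pos.le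
      _ ≤ p * (q' : ℝ) ^ θ := h
      _ ≤ (1 / 2 : ℝ) ^ k * (q' : ℝ) ^ θ := mul_le_mul_of_nonneg_right hp (by positivity)
      _ ≤ (1 / 2 : ℝ) ^ k * ((2 : ℝ) ^ (j' + 1)) ^ θ := mul_le_mul_of_nonneg_left hq2 (by positivity)
  -- convert powers
  have e1 : ∀ n : ℕ, ((2 : ℝ) ^ n) ^ θ = (2 : ℝ) ^ ((n : ℝ) * θ) := by
    intro n
    rw [← Real.rpow_natCast, ← Real.rpow_mul h2.le]
  have e2 : ∀ n : ℕ, (1 / 2 : ℝ) ^ n = (2 : ℝ) ^ (-(n : ℝ)) := by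
    intro n
    rw [Real.rpow_neg h2.le, Real.rpow_natCast, one_div, inv_pow]
  have H' : (2 : ℝ) ^ (-((k' + 1 : ℕ) : ℝ) + (j : ℝ) * θ) < (2 : ℝ) ^ (-(k : ℝ) + ((j' + 1 : ℕ) : ℝ) * θ) := by
    rw [Real.rpow_add h2, Real.rpow_add h2, ← e2, ← e2, ← e1, ← e1]
    exact H
  have H'' : -((k' + 1 : ℕ) : ℝ) + (j : ℝ) * θ < -(k : ℝ) + ((j' + 1 : ℕ) : ℝ) * θ :=
    (Real.rpow_lt_rpow_left_iff (by norm_num : (1 : ℝ) < 2)).1 H'
  push_cast at H''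
  constructor
  · -- part (a)
    have hθ2 : (2 : ℝ) ^ θ ≤ 2 := by
      calc (2 : ℝ) ^ θ ≤ (2 : ℝ) ^ (1 : ℝ) :=
            Real.rpow_le_rpow_of_exponent_le (by norm_num) (by linarith)
        _ = 2 := Real.rpow_one 2
    have hK : (2 : ℝ) ^ k * ((2 : ℝ) ^ j) ^ θ ≤ (2 : ℝ) ^ (k' + 1) * ((2 : ℝ) ^ (j' + 1)) ^ θ := by
      have hA : (2 : ℝ) ^ k * (1 / 2 : ℝ) ^ k = 1 := by
        rw [← mul_pow]; norm_num
      have hB : (2 : ℝ) ^ (k' + 1) * (1 / 2 : ℝ) ^ (k' + 1) = 1 := by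
        rw [← mul_pow]; norm_num
      have hC := mul_lt_mul_of_pos_left H (by positivity : (0 : ℝ) < (2 : ℝ) ^ k * (2 : ℝ) ^ (k' + 1))
      have hL : (2 : ℝ) ^ k * (2 : ℝ) ^ (k' + 1) * ((1 / 2 : ℝ) ^ (k' + 1) * ((2 : ℝ) ^ j) ^ θ)
          = (2 : ℝ) ^ k * ((2 : ℝ) ^ j) ^ θ * ((2 : ℝ) ^ (k' + 1) * (1 / 2 : ℝ) ^ (k' + 1)) := by ring
      have hR : (2 : ℝ) ^ k * (2 : ℝ) ^ (k' + 1) * ((1 / 2 : ℝ) ^ k * ((2 : ℝ) ^ (j' + 1)) ^ θ)
          = (2 : ℝ) ^ (k' + 1) * ((2 : ℝ) ^ (j' + 1)) ^ θ * ((2 : ℝ) ^ k * (1 / 2 : ℝ) ^ k) := by ring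
      rw [hL, hR, hA, hB, mul_one, mul_one] at hC
      exact hC.le
    have hsplit : ((2 : ℝ) ^ (j' + 1)) ^ θ = ((2 : ℝ) ^ j') ^ θ * (2 : ℝ) ^ θ := by
      rw [pow_succ, Real.mul_rpow (by positivity) (by norm_num)]
    calc (2 : ℝ) ^ k * ((2 : ℝ) ^ j) ^ θ ≤ (2 : ℝ) ^ (k' + 1) * ((2 : ℝ) ^ (j' + 1)) ^ θ := hK
      _ = 2 * ((2 : ℝ) ^ k' * ((2 : ℝ) ^ j') ^ θ) * (2 : ℝ) ^ θ := by rw [hsplit, pow_succ]; ring
      _ ≤ 2 * ((2 : ℝ) ^ k' * ((2 : ℝ) ^ j') ^ θ) * 2 :=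
          mul_le_mul_of_nonneg_left hθ2 (by positivity)
      _ = 4 * ((2 : ℝ) ^ k' * ((2 : ℝ) ^ j') ^ θ) := by ring
  · -- part (b)
    have hjj' : (j : ℝ) + 1 ≤ (j' : ℝ) := by exact_mod_cast hjj
    have hd : (0 : ℝ) ≤ (j' : ℝ) + 1 - (j : ℝ) := by
      have : (0 : ℝ) ≤ (j : ℝ) := Nat.cast_nonneg j
      linarith
    have hmain : (k : ℝ) - (k' : ℝ) < 1 + ((j' : ℝ) + 1 - (j : ℝ)) * θ := by nlinarith
    have hmain2 : ((j' : ℝ) + 1 - (j : ℝ)) * θ ≤ ((j' : ℝ) + 1 - (j : ℝ)) * (1 / 2) :=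
      mul_le_mul_of_nonneg_left hθ1.le hd
    have hfin : 2 * (j : ℝ) + (k : ℝ) < 2 * (j' : ℝ) + (k' : ℝ) := by linarith
    exact_mod_cast hfin

/-- Same proof as `P028H.exists_levels_w`, with `rank q = 2 * j q + k q`. For `q, q' ∈ Bk` with `j q < j q'`, `chain_arith` (from `hchain`) gives `rank q < rank q'`. Hence
`rank q ≤ rank q'` implies `j q ≤ j q'`, and if also `j q = j q'` then `k q ≤ k q'`; equal ranks give equal `j` and equal `k` (`hSrep`). `hsize`, `hzt`, `hσ`, `hτ`, `hτ1`, `hQmono`, mass, `hmaj` as there.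
`hKθ` with `A' = 4`: for `r ≤ s` let `q = rep r`, `q' = rep s`: if `j q = j q'` then `k q ≤ k q'`, `Q r = Q s`, `K r ≤ K s`; if `j q < j q'`, part (a) of `chain_arith` divided by `2^3` (`K r = 2^(k q - 3)`, `k ≥ 3`), and `(Q r : ℝ) = 2 ^ j q`.
`hprod`: `(Q r)² K r = 2^(2 j + k - 3)`, with equality. -/
theorem exists_levels_J (ψ f : ℕ → ℝ) (hf0 : ∀ q, 0 ≤ f q) (e θ : ℝ) (he : 1 / 2 ≤ e) (he1 : e < 1)
    (hθ0 : 0 < θ) (hθ1 : θ < 1 / 2)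
    (hfσ : ∀ q, 0 < ψ q → f q * (∑ d ∈ q.divisors, (d : ℝ)) ≤ q)
    (hchain : ∀ q r, 0 < ψ q → 0 < ψ r → Nat.log 2 q < Nat.log 2 r → ψ r * (q : ℝ) ^ θ ≤ ψ q * (r : ℝ) ^ θ)
    (hsize : ∀ q, 0 < ψ q → (q.divisors.card : ℝ) ^ (1 / (1 - e)) * ψ q * (q : ℝ) ^ (1 / (2 - e)) ≤ 1)
    (Bk : Finset ℕ) (hBk : ∀ q ∈ Bk, 27 ≤ q ∧ 0 < ψ q) :
    ∃ (I : Finset ℕ) (Q K Z : ℕ → ℕ) (τ : ℕ → ℝ) (S : ℕ → Finset ℕ),
      LevelDataJ f e 128 5 θ 4 I Q K Z τ S ∧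
      (∀ q ∈ Bk, ∃ r ∈ I, q ∈ S r) ∧
      (∀ r ∈ I, ∀ q ∈ S r, (K r : ℝ) * ψ q ≤ 1 / 8) ∧
      ∑ r ∈ I, (∑ q ∈ S r, f q) / K r ≤ 16 * ∑ q ∈ Bk, f q * ψ q := by
  classical
  have hcard1 : ∀ q ∈ Bk, (1 : ℝ) ≤ (q.divisors.card : ℝ) := by
    intro q hq
    have hq0 : q ≠ 0 := by have := (hBk q hq).1; omega
    have : 0 < q.divisors.card := Finset.card_pos.2 ⟨1, Nat.one_mem_divisors.2 hq0⟩
    exact_mod_cast this
  have hle : ∀ q ∈ Bk, ψ q ≤ 1 / 9 := by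
    intro q hq
    obtain ⟨h27, hp⟩ := hBk q hq
    have h1 := hsize q hp
    have hc0 : 0 ≤ 1 / (1 - e) := by
      apply div_nonneg zero_le_one
      linarith
    have h3 : 1 ≤ (q.divisors.card : ℝ) ^ (1 / (1 - e)) := Real.one_le_rpow (hcard1 q hq) hc0
    have h2 : 9 ≤ (q : ℝ) ^ (1 / (2 - e)) := by
      have h27' := rpow_two_thirds_ge h27
      have hq1 : (1 : ℝ) ≤ q := by
        have : 1 ≤ q := by omega
        exact_mod_cast this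
      have h23 : (2 : ℝ) / 3 ≤ 1 / (2 - e) := by
        rw [le_div_iff₀ (by linarith)]
        linarith
      have := Real.rpow_le_rpow_of_exponent_le hq1 h23
      linarith
    have h4 : ψ q * 9 ≤ (q.divisors.card : ℝ) ^ (1 / (1 - e)) * ψ q * (q : ℝ) ^ (1 / (2 - e)) := by
      calc ψ q * 9 ≤ ψ q * (q : ℝ) ^ (1 / (2 - e)) := mul_le_mul_of_nonneg_left h2 hp.le
        _ = 1 * ψ q * (q : ℝ) ^ (1 / (2 - e)) := by ring
        _ ≤ (q.divisors.card : ℝ) ^ (1 / (1 - e)) * ψ q * (q : ℝ) ^ (1 / (2 - e)) := by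
          have h5 : 0 ≤ (q : ℝ) ^ (1 / (2 - e)) := by positivity
          exact mul_le_mul_of_nonneg_right (mul_le_mul_of_nonneg_right h3 hp.le) h5
    linarith
  have hk0 : ∀ q ∈ Bk, ∃ k : ℕ, (1 / 2 : ℝ) ^ (k + 1) < ψ q ∧ ψ q ≤ (1 / 2 : ℝ) ^ k := by
    intro q hq
    exact exists_kk (hBk q hq).2 (by have := hle q hq; linarith)
  choose! k hk using hk0
  have hk3 : ∀ q ∈ Bk, 3 ≤ k q := by
    intro q hq
    by_contra hc
    have hc' : k q + 1 ≤ 3 := by omega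
    have h1 : (1 / 2 : ℝ) ^ 3 ≤ (1 / 2 : ℝ) ^ (k q + 1) :=
      pow_le_pow_of_le_one (by norm_num) (by norm_num) hc'
    have h2 := (hk q hq).1
    have h3 := hle q hq
    norm_num at h1
    linarith
  obtain ⟨j, hj⟩ : ∃ j : ℕ → ℕ, ∀ q, j q = Nat.log 2 q := ⟨_, fun _ => rfl⟩
  obtain ⟨rank, hrank⟩ : ∃ rank : ℕ → ℕ, ∀ q, rank q = 2 * j q + k q := ⟨_, fun _ => rfl⟩
  have hca : ∀ q ∈ Bk, ∀ q' ∈ Bk, j q < j q' →
      (2 : ℝ) ^ k q * ((2 : ℝ) ^ j q) ^ θ ≤ 4 * ((2 : ℝ) ^ k q' * ((2 : ℝ) ^ j q') ^ θ) ∧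
        2 * j q + k q < 2 * j q' + k q' := by
    intro q hq q' hq' h
    have hq0 : q ≠ 0 := by have := (hBk q hq).1; omega
    have h1 : 2 ^ j q ≤ q := by rw [hj]; exact Nat.pow_log_le_self 2 hq0
    have h2 : q' < 2 ^ (j q' + 1) := by rw [hj]; exact Nat.lt_pow_succ_log_self (by norm_num) q'
    have h' := h
    rw [hj, hj] at h'
    exact chain_arith θ (ψ q) (ψ q') hθ0 hθ1 (j q) (j q') (k q) (k q') q q' h h1 h2 (hk q' hq').1
      (hk q hq).2 (hchain q q' (hBk q hq).2 (hBk q' hq').2 h')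
  have hchain2 : ∀ q ∈ Bk, ∀ q' ∈ Bk, rank q ≤ rank q' →
      j q ≤ j q' ∧ (j q = j q' → k q ≤ k q') := by
    intro q hq q' hq' hr
    rw [hrank, hrank] at hr
    rcases lt_trichotomy (j q) (j q') with h | h | h
    · exact ⟨h.le, fun h' => by omega⟩
    · exact ⟨h.le, fun _ => by omega⟩
    · have := (hca q' hq' q hq h).2
      omega
  obtain ⟨I, hI⟩ : ∃ I : Finset ℕ, I = Bk.image rank := ⟨_, rfl⟩
  obtain ⟨S, hS⟩ : ∃ S : ℕ → Finset ℕ, ∀ r q, q ∈ S r ↔ q ∈ Bk ∧ rank q = r :=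
    ⟨fun r => Bk.filter (fun q => rank q = r), fun r q => Finset.mem_filter⟩
  have hIex : ∀ r ∈ I, ∃ q, q ∈ S r := by
    intro r hr
    rw [hI] at hr
    obtain ⟨q, hq, hqr⟩ := Finset.mem_image.1 hr
    exact ⟨q, (hS r q).2 ⟨hq, hqr⟩⟩
  choose! rep hrepS using hIex
  have hrepB : ∀ r ∈ I, rep r ∈ Bk := fun r hr => ((hS r _).1 (hrepS r hr)).1
  have hreprank : ∀ r ∈ I, rank (rep r) = r := fun r hr => ((hS r _).1 (hrepS r hr)).2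
  have hSrep : ∀ r ∈ I, ∀ q ∈ S r, j q = j (rep r) ∧ k q = k (rep r) := by
    intro r hr q hq
    obtain ⟨hqB, hqr⟩ := (hS r q).1 hq
    have h1 := hchain2 q hqB _ (hrepB r hr) (by rw [hqr, hreprank r hr])
    have h2 := hchain2 _ (hrepB r hr) q hqB (by rw [hqr, hreprank r hr])
    have h3 : j q = j (rep r) := le_antisymm h1.1 h2.1
    exact ⟨h3, le_antisymm (h1.2 h3) (h2.2 h3.symm)⟩
  obtain ⟨Q, hQ⟩ : ∃ Q : ℕ → ℕ, ∀ r, Q r = 2 ^ j (rep r) := ⟨_, fun _ => rfl⟩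
  obtain ⟨K, hK⟩ : ∃ K : ℕ → ℕ, ∀ r, K r = 2 ^ (k (rep r) - 3) := ⟨_, fun _ => rfl⟩
  have hQpos : ∀ r, 0 < Q r := fun r => by rw [hQ]; positivity
  have hKpos : ∀ r, 0 < K r := fun r => by rw [hK]; positivity
  obtain ⟨Zc, hZc1, hZc3, hZclt⟩ : ∃ Z : ℕ → ℕ, (∀ r, 1 ≤ Z r) ∧ (∀ r, Z r ^ 3 ≤ Q r) ∧
      (∀ r, Q r < (2 * Z r) ^ 3) := by
    choose Z hZ using fun r => exists_cube_root (Q r) (hQpos r)
    exact ⟨Z, fun r => (hZ r).1, fun r => (hZ r).2.1, fun r => (hZ r).2.2⟩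
  have hY1 : ∀ r, (1 : ℝ) ≤ (K r : ℝ) ^ (1 - e) := by
    intro r
    refine Real.one_le_rpow ?_ (by linarith)
    exact_mod_cast hKpos r
  obtain ⟨F, hF⟩ : ∃ F : ℕ → ℕ, ∀ r, F r = ⌊(K r : ℝ) ^ (1 - e)⌋₊ := ⟨_, fun _ => rfl⟩
  have hF1 : ∀ r, 1 ≤ F r := by
    intro r
    rw [hF]
    apply Nat.le_floor
    simpa using hY1 r
  have hFle : ∀ r, (F r : ℝ) ≤ (K r : ℝ) ^ (1 - e) := by
    intro r
    rw [hF]
    exact Nat.floor_le (by linarith [hY1 r])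
  have hYle : ∀ r, (K r : ℝ) ^ (1 - e) ≤ 2 * (F r : ℝ) := by
    intro r
    have h1 : (K r : ℝ) ^ (1 - e) < (F r : ℝ) + 1 := by
      rw [hF]
      exact Nat.lt_floor_add_one _
    have h2 : (1 : ℝ) ≤ F r := by exact_mod_cast hF1 r
    linarith
  obtain ⟨Z, hZ⟩ : ∃ Z : ℕ → ℕ, ∀ r, Z r = min (Zc r) (F r) := ⟨_, fun _ => rfl⟩
  have hZ1' : ∀ r, 1 ≤ Z r := fun r => by
    rw [hZ]
    exact le_min (hZc1 r) (hF1 r)
  have hZ3' : ∀ r, Z r ^ 3 ≤ Q r := fun r =>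
    (Nat.pow_le_pow_left (by rw [hZ]; exact min_le_left _ _) 3).trans (hZc3 r)
  have hZY : ∀ r, (Z r : ℝ) ≤ (K r : ℝ) ^ (1 - e) := fun r => by
    have h1 : Z r ≤ F r := by rw [hZ]; exact min_le_right _ _
    have h2 : (Z r : ℝ) ≤ F r := by exact_mod_cast h1
    exact h2.trans (hFle r)
  obtain ⟨τ, hτ⟩ : ∃ τ : ℕ → ℕ, ∀ r, τ r = (S r).sup (fun q => q.divisors.card) := ⟨_, fun _ => rfl⟩
  have hrange : ∀ r ∈ I, ∀ q ∈ S r, Q r ≤ q ∧ q < 2 * Q r := by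
    intro r hr q hq
    obtain ⟨hqB, -⟩ := (hS r q).1 hq
    have hq0 : q ≠ 0 := by have := (hBk q hqB).1; omega
    have e' := (hSrep r hr q hq).1
    have h1 : 2 ^ j q ≤ q := by rw [hj]; exact Nat.pow_log_le_self 2 hq0
    have h2 : q < 2 ^ (j q + 1) := by rw [hj]; exact Nat.lt_pow_succ_log_self (by norm_num) q
    rw [hQ, ← e']
    constructor
    · exact h1
    · rw [pow_succ] at h2; omega
  have hchainI : ∀ r ∈ I, ∀ s ∈ I, r ≤ s →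
      j (rep r) ≤ j (rep s) ∧ (j (rep r) = j (rep s) → k (rep r) ≤ k (rep s)) := by
    intro r hr s hs hrs
    exact hchain2 _ (hrepB r hr) _ (hrepB s hs) (by rw [hreprank r hr, hreprank s hs]; exact hrs)
  have hKrpos : ∀ r, (0 : ℝ) < (K r : ℝ) := fun r => by exact_mod_cast hKpos r
  have hKpsi : ∀ r ∈ I, ∀ q ∈ S r, 1 < 16 * (K r : ℝ) * ψ q ∧ (K r : ℝ) * ψ q ≤ 1 / 8 := by
    intro r hr q hq
    obtain ⟨hqB, -⟩ := (hS r q).1 hq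
    have e' := (hSrep r hr q hq).2
    have h3 := hk3 q hqB
    obtain ⟨h1, h2⟩ := hk q hqB
    rw [hK, ← e']
    exact kk_step _ _ h3 h1 h2
  -- the value of `τ r` at a point of the level, and the size arithmetic there
  have hmax : ∀ r ∈ I, ∃ q ∈ S r, ((τ r : ℕ) : ℝ) = (q.divisors.card : ℝ) := by
    intro r hr
    obtain ⟨q, hq, hqs⟩ := Finset.exists_mem_eq_sup (S r) ⟨_, hrepS r hr⟩ (fun q => q.divisors.card)
    exact ⟨q, hq, by rw [hτ, hqs]⟩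
  refine ⟨I, Q, K, Z, fun r => (τ r : ℝ), S, ?_, ?_, ?_, ?_⟩
  · refine ⟨fun r _ => hQpos r, fun r _ => hKpos r, fun r _ => hZ1' r, fun r _ => hZ3' r, hrange,
      ?_, ?_, ?_, ?_, ?_, ?_, ?_, ?_⟩
    · intro r _ q hq
      exact hfσ q (hBk q ((hS r q).1 hq).1).2
    · intro r _ q hq
      have : q.divisors.card ≤ (S r).sup (fun q => q.divisors.card) :=
        Finset.le_sup (f := fun q => q.divisors.card) hq
      rw [← hτ] at this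
      exact_mod_cast this
    · intro r hr
      obtain ⟨q, hq, hqe⟩ := hmax r hr
      show (1 : ℝ) ≤ ((τ r : ℕ) : ℝ)
      rw [hqe]
      exact hcard1 q ((hS r q).1 hq).1
    · -- the size condition
      intro r hr
      obtain ⟨q, hq, hqe⟩ := hmax r hr
      obtain ⟨hqB, -⟩ := (hS r q).1 hq
      obtain ⟨h27, hp⟩ := hBk q hqB
      obtain ⟨-, hb, hc⟩ := size_arith e (q.divisors.card : ℝ) (ψ q) he he1 (hcard1 q hqB) hp q (Q r)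
        (K r) (hQpos r) (hrange r hr q hq).1 (hKpsi r hr q hq).1 (hsize q hp)
      show ((τ r : ℕ) : ℝ) ^ 2 * (Q r : ℝ) ≤ 128 * (Z r : ℝ) * (K r : ℝ)
      rw [hqe]
      rcases le_total (Zc r) (F r) with h | h
      · have hZe : Z r = Zc r := by rw [hZ]; exact min_eq_left h
        have h32 := size_step (q.divisors.card : ℝ) (ψ q) (Nat.cast_nonneg _) hp q (Q r) (Zc r) (K r)
          (hQpos r) (hrange r hr q hq).1 (hZc1 r) (hZclt r) (hKpsi r hr q hq).1 hc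
        rw [hZe]
        have h0 : (0 : ℝ) ≤ (Zc r : ℝ) * (K r : ℝ) := by positivity
        nlinarith
      · have hZe : Z r = F r := by rw [hZ]; exact min_eq_right h
        rw [hZe]
        have h0 : (K r : ℝ) * (K r : ℝ) ^ (1 - e) ≤ (K r : ℝ) * (2 * (F r : ℝ)) :=
          mul_le_mul_of_nonneg_left (hYle r) (hKrpos r).le
        nlinarith
    · intro r hr
      obtain ⟨q, hq, hqe⟩ := hmax r hr
      obtain ⟨hqB, -⟩ := (hS r q).1 hq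
      obtain ⟨h27, hp⟩ := hBk q hqB
      obtain ⟨ha, -, -⟩ := size_arith e (q.divisors.card : ℝ) (ψ q) he he1 (hcard1 q hqB) hp q (Q r)
        (K r) (hQpos r) (hrange r hr q hq).1 (hKpsi r hr q hq).1 (hsize q hp)
      show (Z r : ℝ) + ((τ r : ℕ) : ℝ) ≤ 5 * (K r : ℝ) ^ (1 - e)
      rw [hqe]
      have := hZY r
      linarith
    · intro r hr s hs hrs
      rw [hQ, hQ]
      exact Nat.pow_le_pow_right (by norm_num) (hchainI r hr s hs hrs).1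
    · intro r hr s hs hrs
      obtain ⟨h1, h1'⟩ := hchainI r hr s hs hrs
      have hk3r := hk3 _ (hrepB r hr)
      have hk3s := hk3 _ (hrepB s hs)
      have hKr : (K r : ℝ) * 2 ^ 3 = (2 : ℝ) ^ k (rep r) := by
        rw [hK]
        push_cast
        rw [← pow_add]
        congr 1
        omega
      have hKs : (K s : ℝ) * 2 ^ 3 = (2 : ℝ) ^ k (rep s) := by
        rw [hK]
        push_cast
        rw [← pow_add]
        congr 1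
        omega
      have hQr : (Q r : ℝ) = (2 : ℝ) ^ j (rep r) := by rw [hQ]; push_cast; rfl
      have hQs : (Q s : ℝ) = (2 : ℝ) ^ j (rep s) := by rw [hQ]; push_cast; rfl
      have hpw : (0 : ℝ) ≤ ((2 : ℝ) ^ j (rep r)) ^ θ := by positivity
      have hpw' : (0 : ℝ) ≤ ((2 : ℝ) ^ j (rep s)) ^ θ := by positivity
      rw [hQr, hQs]
      rcases lt_or_eq_of_le h1 with h | h
      · have h2 := (hca _ (hrepB r hr) _ (hrepB s hs) h).1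
        rw [← hKr, ← hKs] at h2
        nlinarith
      · have h2 := h1' h
        have h3 : (K r : ℝ) ≤ K s := by
          have : K r ≤ K s := by
            rw [hK, hK]
            exact Nat.pow_le_pow_right (by norm_num) (by omega)
          exact_mod_cast this
        rw [← h]
        have h4 : (0 : ℝ) ≤ K s := Nat.cast_nonneg _
        nlinarith [mul_le_mul_of_nonneg_right h3 hpw, mul_nonneg h4 hpw]
    · intro r hr s hs hrs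
      have h1 := hk3 _ (hrepB r hr)
      have h2 := hk3 _ (hrepB s hs)
      have h3 := hreprank r hr
      have h4 := hreprank s hs
      rw [hrank] at h3 h4
      have e' : (s - r) + (2 * j (rep r) + (k (rep r) - 3)) = 2 * j (rep s) + (k (rep s) - 3) := by
        omega
      have hfin : (2 : ℝ) ^ (s - r) * (((Q r : ℕ) : ℝ) ^ 2 * ((K r : ℕ) : ℝ)) =
          ((Q s : ℕ) : ℝ) ^ 2 * ((K s : ℕ) : ℝ) := by
        rw [hQ, hK, hQ, hK]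
        push_cast
        rw [← pow_mul, ← pow_mul, ← pow_add, ← pow_add, ← pow_add]
        congr 1
        omega
      exact hfin.le
  · intro q hq
    refine ⟨rank q, ?_, (hS _ q).2 ⟨hq, rfl⟩⟩
    rw [hI]
    exact Finset.mem_image_of_mem _ hq
  · intro r hr q hq
    exact (hKpsi r hr q hq).2
  · have hfib : ∑ q ∈ Bk, f q * ψ q = ∑ r ∈ I, ∑ q ∈ S r, f q * ψ q := by
      have hS' : ∀ r, S r = Bk.filter (fun q => rank q = r) := by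
        intro r
        ext q
        rw [hS, Finset.mem_filter]
      simp_rw [hS']
      rw [hI]
      rw [Finset.sum_fiberwise_of_maps_to (g := rank) (fun q hq => Finset.mem_image_of_mem _ hq)]
    rw [hfib, Finset.mul_sum]
    apply Finset.sum_le_sum
    intro r hr
    rw [Finset.mul_sum, Finset.sum_div]
    apply Finset.sum_le_sum
    intro q hq
    obtain ⟨hKp, -⟩ := hKpsi r hr q hq
    have hKR := hKrpos r
    rw [div_le_iff₀ hKR]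
    have hf := hf0 q
    nlinarith [mul_le_mul_of_nonneg_left hKp.le hf]

end Vale.Agent.Lib.P028J
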