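import Vale.Agent.Lib.P028J.Pair
import Vale.Agent.Lib.P028H.Level

/-! The second moment over a chain of levels where `K` may decrease slowly. -/

open scoped BigOperators Real
open Finset
open Vale.Agent.Lib.P028G Vale.Agent.Lib.P028H

namespace Vale.Agent.Lib.P028J

/-- A chain of levels. -/
structure LevelDataJ (f : ℕ → ℝ) (e C9 C10 θ A' : ℝ) (I : Finset ℕ) (Q K Z : ℕ → ℕ) (τ : ℕ → ℝ)
    (S : ℕ → Finset ℕ) : Prop where
  hQ : ∀ r ∈ I, 0 < Q r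
  hK : ∀ r ∈ I, 0 < K r
  hZ1 : ∀ r ∈ I, 1 ≤ Z r
  hZ : ∀ r ∈ I, Z r ^ 3 ≤ Q r
  hS : ∀ r ∈ I, ∀ q ∈ S r, Q r ≤ q ∧ q < 2 * Q r
  hσ : ∀ r ∈ I, ∀ q ∈ S r, f q * (∑ d ∈ q.divisors, (d : ℝ)) ≤ q
  hτ : ∀ r ∈ I, ∀ q ∈ S r, (q.divisors.card : ℝ) ≤ τ r
  hτ1 : ∀ r ∈ I, 1 ≤ τ r
  hsize : ∀ r ∈ I, τ r ^ 2 * Q r ≤ C9 * Z r * K r
  hzt : ∀ r ∈ I, (Z r : ℝ) + τ r ≤ C10 * (K r : ℝ) ^ (1 - e)
  hQmono : ∀ r ∈ I, ∀ s ∈ I, r ≤ s → Q r ≤ Q s
  hKθ : ∀ r ∈ I, ∀ s ∈ I, r ≤ s → (K r : ℝ) * (Q r : ℝ) ^ θ ≤ A' * K s * (Q s : ℝ) ^ θ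
  hprod : ∀ r ∈ I, ∀ s ∈ I, r ≤ s → (2 : ℝ) ^ (s - r) * ((Q r : ℝ) ^ 2 * K r) ≤ (Q s : ℝ) ^ 2 * K s

/-- The decay rate per index. -/
noncomputable def Wθ (θ : ℝ) : ℝ := (1 / 2 : ℝ) ^ ((1 : ℝ) / 8 - θ / 4)

theorem Wθ_nonneg (θ : ℝ) : 0 ≤ Wθ θ := by
  unfold Wθ
  positivity

theorem Wθ_lt_one (θ : ℝ) (hθ1 : θ < 1 / 2) : Wθ θ < 1 := by
  unfold Wθ
  exact Real.rpow_lt_one (by norm_num) (by norm_num) (by linarith)

/-- As `P028G.schur_geom`, general `w < 1`: `∑_{s} w^|r-s| ≤ 1 + 2 w / (1 - w) ≤ 2 / (1 - w)`. -/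
theorem schur_geom_gen (I : Finset ℕ) (M : ℕ → ℝ) (hM : ∀ r, 0 ≤ M r) (w : ℝ) (hw0 : 0 ≤ w) (hw1 : w < 1) :
    ∑ r ∈ I, ∑ s ∈ I, Real.sqrt (M r * M s) * w ^ (r - s + (s - r)) ≤ (2 / (1 - w)) * ∑ r ∈ I, M r := by
  have hgeo : ∀ T : Finset ℕ, ∑ n ∈ T, w ^ n ≤ 1 / (1 - w) := by
    intro T
    have hs := summable_geometric_of_lt_one hw0 hw1
    have h1 := hs.sum_le_tsum T (fun n _ => pow_nonneg hw0 n)
    rwa [tsum_geometric_of_lt_one hw0 hw1, ← one_div] at h1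
  have hrow : ∀ r, ∑ s ∈ I, w ^ (r - s + (s - r)) ≤ 2 / (1 - w) := by
    intro r
    rw [← sum_filter_add_sum_filter_not I (fun s => s ≤ r)]
    have h1 : ∑ s ∈ I.filter (fun s => s ≤ r), w ^ (r - s + (s - r)) ≤ 1 / (1 - w) := by
      have e : ∑ s ∈ I.filter (fun s => s ≤ r), w ^ (r - s + (s - r)) =
          ∑ n ∈ (I.filter (fun s => s ≤ r)).image (fun s => r - s), w ^ n := by
        rw [sum_image]
        · refine sum_congr rfl fun s hs => ?_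
          have := (mem_filter.1 hs).2
          rw [show s - r = 0 by omega, add_zero]
        · intro a ha b hb hab
          have h3 := (mem_filter.1 (mem_coe.1 ha)).2
          have h4 := (mem_filter.1 (mem_coe.1 hb)).2
          simp only at hab
          omega
      rw [e]
      exact hgeo _
    have h2 : ∑ s ∈ I.filter (fun s => ¬ s ≤ r), w ^ (r - s + (s - r)) ≤ 1 / (1 - w) := by
      have e : ∑ s ∈ I.filter (fun s => ¬ s ≤ r), w ^ (r - s + (s - r)) =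
          ∑ n ∈ (I.filter (fun s => ¬ s ≤ r)).image (fun s => s - r), w ^ n := by
        rw [sum_image]
        · refine sum_congr rfl fun s hs => ?_
          have := (mem_filter.1 hs).2
          rw [show r - s = 0 by omega, zero_add]
        · intro a ha b hb hab
          have h3 := (mem_filter.1 (mem_coe.1 ha)).2
          have h4 := (mem_filter.1 (mem_coe.1 hb)).2
          simp only at hab
          omega
      rw [e]
      exact hgeo _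
    have e2 : (2 : ℝ) / (1 - w) = 1 / (1 - w) + 1 / (1 - w) := by ring
    rw [e2]
    exact add_le_add h1 h2
  have hpt : ∀ r s, Real.sqrt (M r * M s) * w ^ (r - s + (s - r)) ≤
      (M r * w ^ (r - s + (s - r)) + M s * w ^ (s - r + (r - s))) / 2 := by
    intro r s
    have hcomm : s - r + (r - s) = r - s + (s - r) := Nat.add_comm _ _
    rw [hcomm]
    have hpow : 0 ≤ w ^ (r - s + (s - r)) := pow_nonneg hw0 _
    have hsq : Real.sqrt (M r * M s) ≤ (M r + M s) / 2 := by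
      rw [Real.sqrt_le_left (by linarith [hM r, hM s])]
      nlinarith [sq_nonneg (M r - M s)]
    nlinarith
  have h1 : ∑ r ∈ I, ∑ s ∈ I, Real.sqrt (M r * M s) * w ^ (r - s + (s - r)) ≤
      ∑ r ∈ I, ∑ s ∈ I, (M r * w ^ (r - s + (s - r)) + M s * w ^ (s - r + (r - s))) / 2 :=
    sum_le_sum fun r _ => sum_le_sum fun s _ => hpt r s
  have h2 : ∑ r ∈ I, ∑ s ∈ I, (M r * w ^ (r - s + (s - r)) + M s * w ^ (s - r + (r - s))) / 2 =
      ∑ r ∈ I, M r * ∑ s ∈ I, w ^ (r - s + (s - r)) := by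
    have hA : ∑ r ∈ I, ∑ s ∈ I, M s * w ^ (s - r + (r - s)) =
        ∑ r ∈ I, ∑ s ∈ I, M r * w ^ (r - s + (s - r)) := sum_comm
    simp only [← sum_div, sum_add_distrib]
    rw [hA]
    simp only [← mul_sum]
    ring
  have h3 : ∑ r ∈ I, M r * ∑ s ∈ I, w ^ (r - s + (s - r)) ≤ ∑ r ∈ I, M r * (2 / (1 - w)) :=
    sum_le_sum fun r _ => mul_le_mul_of_nonneg_left (hrow r) (hM r)
  have h4 : ∑ r ∈ I, M r * (2 / (1 - w)) = (2 / (1 - w)) * ∑ r ∈ I, M r := by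
    rw [mul_sum]; exact sum_congr rfl fun r _ => mul_comm _ _
  linarith

/-- The decay. Let `r ≤ s`, `n = s - r`, `a = Qr / Qs ∈ (0,1]`, `b = Kr / Ks`, `2^n a² b ≤ 1` (from `hprod`).
If `b ≤ 1`: `(a b)² ≤ a² b ≤ 2^(-n)`, so `√√(a b) ≤ 2^(-n/8) ≤ (Wθ θ)^n`, since `1/8 - θ/4 ≤ 1/8`.
If `b ≥ 1`: `a² ≤ 2^(-n)`, so `a^(1/4-θ/2) ≤ 2^(-n (1/8-θ/4)) = (Wθ θ)^n`. -/
theorem decay_mono (θ a b : ℝ) (hθ0 : 0 < θ) (hθ1 : θ < 1 / 2) (ha : 0 < a) (ha1 : a ≤ 1) (hb : 0 < b) (hb1 : b ≤ 1) (n : ℕ)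
    (h : (2 : ℝ) ^ n * (a ^ 2 * b) ≤ 1) : Real.sqrt (Real.sqrt (a * b)) ≤ (Wθ θ) ^ n := by
  have hW0 : 0 ≤ Wθ θ := Wθ_nonneg θ
  have hW8 : (1 / 2 : ℝ) ≤ (Wθ θ) ^ 8 := by
    unfold Wθ
    rw [← Real.rpow_natCast, ← Real.rpow_mul (by norm_num)]
    calc (1 / 2 : ℝ) = (1 / 2 : ℝ) ^ (1 : ℝ) := by simp
      _ ≤ _ := Real.rpow_le_rpow_of_exponent_ge (by norm_num) (by norm_num) (by push_cast; linarith)
  have h1 : (1 / 2 : ℝ) ^ n ≤ ((Wθ θ) ^ 8) ^ n := pow_le_pow_left₀ (by norm_num) hW8 n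
  have h2n : (0 : ℝ) < 2 ^ n := by positivity
  have h2 : a ^ 2 * b ≤ (1 / 2 : ℝ) ^ n := by
    rw [one_div, inv_pow, le_inv_comm₀ (by positivity) h2n] at *
    · rw [inv_eq_one_div, le_div_iff₀ (by positivity)]
      linarith
  have h3 : (a * b) ^ 2 ≤ a ^ 2 * b := by
    have : 0 ≤ a ^ 2 * b := by positivity
    nlinarith
  have h4 : (a * b) ^ 2 ≤ (((Wθ θ) ^ n) ^ 4) ^ 2 := by
    have : (((Wθ θ) ^ n) ^ 4) ^ 2 = ((Wθ θ) ^ 8) ^ n := by ring
    rw [this]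
    linarith
  have h5 : a * b ≤ ((Wθ θ) ^ n) ^ 4 :=
    (pow_le_pow_iff_left₀ (by positivity) (by positivity) (by norm_num)).1 h4
  apply Real.sqrt_le_iff.2 ⟨by positivity, ?_⟩
  apply Real.sqrt_le_iff.2 ⟨by positivity, ?_⟩
  calc a * b ≤ ((Wθ θ) ^ n) ^ 4 := h5
    _ = (((Wθ θ) ^ n) ^ 2) ^ 2 := by ring

theorem decay_anti (θ a b : ℝ) (hθ0 : 0 < θ) (hθ1 : θ < 1 / 2) (ha : 0 < a) (ha1 : a ≤ 1) (hb : 1 ≤ b) (n : ℕ)
    (h : (2 : ℝ) ^ n * (a ^ 2 * b) ≤ 1) : a ^ ((1 : ℝ) / 4 - θ / 2) ≤ (Wθ θ) ^ n := by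
  have h2n : (0 : ℝ) < 2 ^ n := by positivity
  have h2 : a ^ 2 * b ≤ (1 / 2 : ℝ) ^ n := by
    rw [one_div, inv_pow, le_inv_comm₀ (by positivity) h2n] at *
    · rw [inv_eq_one_div, le_div_iff₀ (by positivity)]
      linarith
  have h3 : a ^ 2 ≤ (1 / 2 : ℝ) ^ n := by
    have : 0 ≤ a ^ 2 := by positivity
    nlinarith
  have hk : (0 : ℝ) ≤ (1 : ℝ) / 8 - θ / 4 := by linarith
  have hL : a ^ ((1 : ℝ) / 4 - θ / 2) = (a ^ 2) ^ ((1 : ℝ) / 8 - θ / 4) := by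
    rw [← Real.rpow_natCast a 2, ← Real.rpow_mul ha.le]
    congr 1
    push_cast
    ring
  have hR : (Wθ θ) ^ n = ((1 / 2 : ℝ) ^ n) ^ ((1 : ℝ) / 8 - θ / 4) := by
    unfold Wθ
    rw [← Real.rpow_natCast, ← Real.rpow_natCast, ← Real.rpow_mul (by norm_num), ← Real.rpow_mul (by norm_num), mul_comm]
  rw [hL, hR]
  exact Real.rpow_le_rpow (by positivity) h3 hk

/-- The constant. -/
noncomputable def CLJ (C C9 C10 θ A' : ℝ) : ℝ := 18 * (C7H C C9 C10 * Real.sqrt A') * (2 / (1 - Wθ θ))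

/-- Same proof as `P028H.level_second_w` with `w = Wθ θ`, `c7 = C7H C C9 C10 * √A'`: the ordered bound for `r ≤ s` is
`(1/(K r K s)) ∫ F r F s ≤ M r M s + 2 c7 (√(M r M s) w^(s-r))`. If `K r ≤ K s` use `pair_norm_w` and `decay_mono` (with `a = Q r/Q s`, `b = K r/K s`; `√A' ≥ 1`).
If `K s ≤ K r` use `pair_anti` (with `h.hKθ`) and `decay_anti` (`b = K r/K s ≥ 1`). Then as there, `schur_geom_gen`. -/
theorem level_second_J (γ C e C9 C10 θ A' : ℝ) (hC : 0 ≤ C) (he : 1 / 2 ≤ e) (he1 : e ≤ 1)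
    (hR : RowBd γ C e) (hnz : ∀ n : ℕ, 0 < n → 0 < nrm ((n : ℝ) * γ))
    (hC9 : 0 ≤ C9) (hC10 : 0 ≤ C10) (hθ0 : 0 < θ) (hθ1 : θ < 1 / 2) (hA' : 1 ≤ A')
    (f : ℕ → ℝ) (hf0 : ∀ q, 0 ≤ f q) (hf1 : ∀ q, f q ≤ 1)
    (I : Finset ℕ) (Q K Z : ℕ → ℕ) (τ : ℕ → ℝ) (S : ℕ → Finset ℕ)
    (h : LevelDataJ f e C9 C10 θ A' I Q K Z τ S) :
    ∫ x in (0 : ℝ)..1,
        (∑ r ∈ I, (3 / (K r : ℝ)) * ∑ q ∈ S r, f q * fej (K r) ((q : ℝ) * x - γ)) ^ 2 ≤
      9 * (∑ r ∈ I, (∑ q ∈ S r, f q) / K r) ^ 2 +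
        CLJ C C9 C10 θ A' * ∑ r ∈ I, (∑ q ∈ S r, f q) / K r := by
  classical
  set M : ℕ → ℝ := fun r => (∑ q ∈ S r, f q) / K r with hMdef
  have hM0 : ∀ r, 0 ≤ M r := fun r => by
    simp only [hMdef]
    exact div_nonneg (sum_nonneg fun q _ => hf0 q) (Nat.cast_nonneg _)
  set F : ℕ → ℝ → ℝ := fun r x => ∑ q ∈ S r, f q * fej (K r) ((q : ℝ) * x - γ) with hF
  have hFc : ∀ r, Continuous (F r) := fun r => by
    simp only [hF]
    exact continuous_finsetSum _ (fun q _ => (fej_continuous_aux _ _ _).const_mul _)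
  set w := Wθ θ with hw
  have hw0 : 0 ≤ w := Wθ_nonneg θ
  have hw1 : w < 1 := Wθ_lt_one θ hθ1
  have hC7H : 0 ≤ C7H C C9 C10 := by
    simp only [C7H]
    have h1 := Real.sqrt_nonneg C9
    have h2 := mul_nonneg hC hC10
    nlinarith
  have hsA' : 1 ≤ Real.sqrt A' := by
    rw [Real.one_le_sqrt]
    exact hA'
  set c7 := C7H C C9 C10 * Real.sqrt A' with hc7
  have hC7 : 0 ≤ c7 := mul_nonneg hC7H (Real.sqrt_nonneg _)
  -- one ordered pair
  have ordered : ∀ r ∈ I, ∀ s ∈ I, r ≤ s →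
      (1 / ((K r : ℝ) * K s)) * ∫ x in (0 : ℝ)..1, F r x * F s x ≤
        M r * M s + 2 * c7 * (Real.sqrt (M r * M s) * w ^ (s - r)) := by
    intro r hr s hs hrs
    have hQr : (0 : ℝ) < Q r := by exact_mod_cast h.hQ r hr
    have hQs : (0 : ℝ) < Q s := by exact_mod_cast h.hQ s hs
    have hKr : (0 : ℝ) < K r := by exact_mod_cast h.hK r hr
    have hKs : (0 : ℝ) < K s := by exact_mod_cast h.hK s hs
    have ha : 0 < (Q r : ℝ) / Q s := div_pos hQr hQs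
    have ha1 : (Q r : ℝ) / Q s ≤ 1 := by
      rw [div_le_one hQs]
      exact_mod_cast h.hQmono r hr s hs hrs
    have hb : 0 < (K r : ℝ) / K s := div_pos hKr hKs
    have hprod : (2 : ℝ) ^ (s - r) * (((Q r : ℝ) / Q s) ^ 2 * ((K r : ℝ) / K s)) ≤ 1 := by
      have hp := h.hprod r hr s hs hrs
      have : (2 : ℝ) ^ (s - r) * (((Q r : ℝ) / Q s) ^ 2 * ((K r : ℝ) / K s)) =
          ((2 : ℝ) ^ (s - r) * ((Q r : ℝ) ^ 2 * K r)) / ((Q s : ℝ) ^ 2 * K s) := by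
        field_simp
      rw [this, div_le_one (by positivity)]
      exact hp
    have hSq : 0 ≤ 2 * C7H C C9 C10 * Real.sqrt (M r * M s) := by positivity
    rcases le_total (K r) (K s) with hK | hK
    · have hb1 : (K r : ℝ) / K s ≤ 1 := by
        rw [div_le_one hKs]
        exact_mod_cast hK
      have hpn := pair_norm_w γ C e C9 C10 (τ r) (τ s) hC he he1 hR hnz hC9 hC10
        (h.hτ1 r hr) (h.hτ1 s hs)
        (K r) (K s) (Q r) (Q s) (Z r) (Z s) (h.hK r hr) (h.hK s hs) (h.hQ r hr) (h.hQ s hs)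
        (h.hZ1 r hr) (h.hZ1 s hs) (h.hZ r hr) (h.hZ s hs) (S r) (S s) (h.hS r hr) (h.hS s hs)
        f hf0 hf1 (h.hσ r hr) (h.hσ s hs) (h.hτ r hr) (h.hτ s hs) (h.hsize r hr) (h.hsize s hs)
        (h.hzt r hr) (h.hzt s hs)
        (h.hQmono r hr s hs hrs) hK
      have hd := decay_mono θ _ _ hθ0 hθ1 ha ha1 hb hb1 (s - r) hprod
      have hwn : 0 ≤ w ^ (s - r) := pow_nonneg hw0 _
      calc (1 / ((K r : ℝ) * K s)) * ∫ x in (0 : ℝ)..1, F r x * F s x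
          ≤ M r * M s + 2 * C7H C C9 C10 * Real.sqrt (M r * M s) *
              Real.sqrt (Real.sqrt (((Q r : ℝ) / Q s) * ((K r : ℝ) / K s))) := hpn
        _ ≤ M r * M s + 2 * C7H C C9 C10 * Real.sqrt (M r * M s) * w ^ (s - r) := by
            have := mul_le_mul_of_nonneg_left hd hSq
            linarith
        _ ≤ M r * M s + 2 * C7H C C9 C10 * Real.sqrt (M r * M s) * (Real.sqrt A' * w ^ (s - r)) := by
            have h1 : w ^ (s - r) ≤ Real.sqrt A' * w ^ (s - r) :=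
              le_mul_of_one_le_left hwn hsA'
            have := mul_le_mul_of_nonneg_left h1 hSq
            linarith
        _ = _ := by
            simp only [hc7]
            ring
    · have hb1 : 1 ≤ (K r : ℝ) / K s := by
        rw [one_le_div hKs]
        exact_mod_cast hK
      have hpn := pair_anti γ C e C9 C10 (τ r) (τ s) A' θ hC he he1 hR hnz hC9 hC10
        (h.hτ1 r hr) (h.hτ1 s hs) hA' hθ0 hθ1
        (K r) (K s) (Q r) (Q s) (Z r) (Z s) (h.hK r hr) (h.hK s hs) (h.hQ r hr) (h.hQ s hs)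
        (h.hZ1 r hr) (h.hZ1 s hs) (h.hZ r hr) (h.hZ s hs) (S r) (S s) (h.hS r hr) (h.hS s hs)
        f hf0 hf1 (h.hσ r hr) (h.hσ s hs) (h.hτ r hr) (h.hτ s hs) (h.hsize r hr) (h.hsize s hs)
        (h.hzt r hr) (h.hzt s hs)
        (h.hQmono r hr s hs hrs) hK (h.hKθ r hr s hs hrs)
      have hd := decay_anti θ _ _ hθ0 hθ1 ha ha1 hb1 (s - r) hprod
      have hsq0 : 0 ≤ Real.sqrt A' := Real.sqrt_nonneg _
      calc (1 / ((K r : ℝ) * K s)) * ∫ x in (0 : ℝ)..1, F r x * F s x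
          ≤ M r * M s + 2 * C7H C C9 C10 * Real.sqrt (M r * M s) *
              (Real.sqrt A' * ((Q r : ℝ) / Q s) ^ ((1 : ℝ) / 4 - θ / 2)) := hpn
        _ ≤ M r * M s + 2 * C7H C C9 C10 * Real.sqrt (M r * M s) * (Real.sqrt A' * w ^ (s - r)) := by
            have h1 := mul_le_mul_of_nonneg_left hd hsq0
            have := mul_le_mul_of_nonneg_left h1 hSq
            linarith
        _ = _ := by
            simp only [hc7]
            ring
  have key : ∀ r ∈ I, ∀ s ∈ I,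
      (1 / ((K r : ℝ) * K s)) * ∫ x in (0 : ℝ)..1, F r x * F s x ≤
        M r * M s + 2 * c7 * (Real.sqrt (M r * M s) * w ^ (r - s + (s - r))) := by
    intro r hr s hs
    rcases le_total r s with hrs | hsr
    · have := ordered r hr s hs hrs
      rw [show r - s + (s - r) = s - r by omega]
      exact this
    · have := ordered s hs r hr hsr
      rw [show r - s + (s - r) = r - s by omega]
      have e1 : (1 / ((K r : ℝ) * K s)) * ∫ x in (0 : ℝ)..1, F r x * F s x =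
          (1 / ((K s : ℝ) * K r)) * ∫ x in (0 : ℝ)..1, F s x * F r x := by
        rw [mul_comm (K r : ℝ) (K s : ℝ)]
        congr 1
        apply intervalIntegral.integral_congr
        intro x _
        simp only [mul_comm]
      rw [e1, mul_comm (M r) (M s)]
      exact this
  -- expansion
  have expand : ∫ x in (0 : ℝ)..1, (∑ r ∈ I, (3 / (K r : ℝ)) * F r x) ^ 2 =
      ∑ r ∈ I, ∑ s ∈ I, 9 * ((1 / ((K r : ℝ) * K s)) * ∫ x in (0 : ℝ)..1, F r x * F s x) := by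
    have e : ∀ x : ℝ, (∑ r ∈ I, (3 / (K r : ℝ)) * F r x) ^ 2 =
        ∑ r ∈ I, ∑ s ∈ I, 9 * ((1 / ((K r : ℝ) * K s)) * (F r x * F s x)) := by
      intro x
      rw [sq, Finset.sum_mul_sum]
      refine Finset.sum_congr rfl (fun r _ => Finset.sum_congr rfl (fun s _ => ?_))
      have : (3 / (K r : ℝ)) * (3 / (K s : ℝ)) = 9 * (1 / ((K r : ℝ) * K s)) := by
        rw [div_mul_div_comm]
        ring
      calc (3 / (K r : ℝ)) * F r x * ((3 / (K s : ℝ)) * F s x)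
          = ((3 / (K r : ℝ)) * (3 / (K s : ℝ))) * (F r x * F s x) := by ring
        _ = _ := by rw [this]; ring
    simp_rw [e]
    rw [intervalIntegral.integral_finsetSum]
    · refine Finset.sum_congr rfl (fun r _ => ?_)
      rw [intervalIntegral.integral_finsetSum]
      · refine Finset.sum_congr rfl (fun s _ => ?_)
        rw [intervalIntegral.integral_const_mul, intervalIntegral.integral_const_mul]
      · intro s _
        exact (((hFc r).mul (hFc s)).const_mul _ |>.const_mul _).intervalIntegrable _ _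
    · intro r _
      refine (Continuous.intervalIntegrable ?_ _ _)
      refine continuous_finsetSum _ (fun s _ => ?_)
      exact (((hFc r).mul (hFc s)).const_mul _ |>.const_mul _)
  have hS := schur_geom_gen I M hM0 w hw0 hw1
  have hgeom : 0 ≤ 18 * c7 := by positivity
  have goal' : ∫ x in (0 : ℝ)..1, (∑ r ∈ I, (3 / (K r : ℝ)) * F r x) ^ 2 ≤
      9 * (∑ r ∈ I, M r) ^ 2 + CLJ C C9 C10 θ A' * ∑ r ∈ I, M r := by
    rw [expand]
    calc ∑ r ∈ I, ∑ s ∈ I, 9 * ((1 / ((K r : ℝ) * K s)) * ∫ x in (0 : ℝ)..1, F r x * F s x)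
        ≤ ∑ r ∈ I, ∑ s ∈ I, 9 * (M r * M s + 2 * c7 *
            (Real.sqrt (M r * M s) * w ^ (r - s + (s - r)))) := by
          refine Finset.sum_le_sum (fun r hr => Finset.sum_le_sum (fun s hs => ?_))
          exact mul_le_mul_of_nonneg_left (key r hr s hs) (by norm_num)
      _ = 9 * (∑ r ∈ I, M r) ^ 2 + 18 * c7 * ∑ r ∈ I, ∑ s ∈ I,
            Real.sqrt (M r * M s) * w ^ (r - s + (s - r)) := by
          rw [sq, Finset.sum_mul_sum, Finset.mul_sum, Finset.mul_sum, ← Finset.sum_add_distrib]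
          refine Finset.sum_congr rfl (fun r _ => ?_)
          rw [Finset.mul_sum, Finset.mul_sum, ← Finset.sum_add_distrib]
          refine Finset.sum_congr rfl (fun s _ => ?_)
          ring
      _ ≤ 9 * (∑ r ∈ I, M r) ^ 2 + 18 * c7 * ((2 / (1 - w)) * ∑ r ∈ I, M r) := by
          have := mul_le_mul_of_nonneg_left hS hgeom
          linarith
      _ = _ := by
          simp only [CLJ, hc7, hw]
          ring
  exact goal'

end Vale.Agent.Lib.P028J
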