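import Vale.Agent.Lib.P028J.Build
import Vale.Agent.Lib.P028H.Union

/-! The main theorems for `ψ` such that `ψ(q)/q^θ` is essentially non-increasing. -/

open scoped BigOperators Real
open Finset MeasureTheory Filter Set
open Vale.Agent.Lib.P028 Vale.Agent.Lib.P028E Vale.Agent.Lib.P028G Vale.Agent.Lib.P028H

namespace Vale.Agent.Lib.P028J

/-- The size of `ψ` from the size hypothesis with general exponents. -/
private theorem psi_mul_rpow_le (e : ℝ) (he : 1 / 2 ≤ e) (he1 : e < 1) {ψ : ℝ} {q : ℕ} (hq : 0 < q)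
    (hψ : 0 < ψ)
    (h : (q.divisors.card : ℝ) ^ (1 / (1 - e)) * ψ * (q : ℝ) ^ (1 / (2 - e)) ≤ 1) :
    ψ * (q : ℝ) ^ ((2 : ℝ) / 3) ≤ 1 := by
  have hc : (1 : ℝ) ≤ (q.divisors.card : ℝ) := one_le_card_divisors hq
  have h1e : 0 < 1 - e := by linarith
  have h2e : 0 < 2 - e := by linarith
  have h2 : (1 : ℝ) ≤ (q.divisors.card : ℝ) ^ (1 / (1 - e)) :=
    Real.one_le_rpow hc (by positivity)
  have hq1 : (1 : ℝ) ≤ q := by exact_mod_cast hq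
  have h3 : (q : ℝ) ^ ((2 : ℝ) / 3) ≤ (q : ℝ) ^ (1 / (2 - e)) := by
    apply Real.rpow_le_rpow_of_exponent_le hq1
    rw [div_le_div_iff₀ (by norm_num) h2e]
    linarith
  have h4 : 0 < (q : ℝ) ^ ((2 : ℝ) / 3) := by positivity
  have h5 : 0 < (q : ℝ) ^ (1 / (2 - e)) := by positivity
  calc ψ * (q : ℝ) ^ ((2 : ℝ) / 3) ≤ ψ * (q : ℝ) ^ (1 / (2 - e)) :=
        mul_le_mul_of_nonneg_left h3 hψ.le
    _ ≤ (q.divisors.card : ℝ) ^ (1 / (1 - e)) * (ψ * (q : ℝ) ^ (1 / (2 - e))) :=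
        le_mul_of_one_le_left (by positivity) h2
    _ = (q.divisors.card : ℝ) ^ (1 / (1 - e)) * ψ * (q : ℝ) ^ (1 / (2 - e)) := by ring
    _ ≤ 1 := h

/-- The cell lower bound. -/
private theorem cell_chain (γ e : ℝ) (he : 1 / 2 ≤ e) (he1 : e < 1) (ψ : ℕ → ℝ)
    (hsize : ∀ q, 0 < ψ q → (q.divisors.card : ℝ) ^ (1 / (1 - e)) * ψ q * (q : ℝ) ^ (1 / (2 - e)) ≤ 1)
    (N : ℕ) (hN : 0 < N) :
    ∃ q₁ : ℕ, ∀ q, q₁ ≤ q → 0 < ψ q → ∀ n : ℕ, n < N →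
      1 / (N : ℝ) * ψ q ≤
        (volume (arcSet q γ (ψ q) ∩ Ioc ((n : ℝ) / N) (((n : ℝ) + 1) / N))).toReal := by
  refine ⟨max 27 (6 * N), fun q hq hψ n _ => ?_⟩
  have hq27 : 27 ≤ q := le_trans (le_max_left _ _) hq
  have hq6 : 6 * N ≤ q := le_trans (le_max_right _ _) hq
  have hqpos : 0 < q := by omega
  have hq' : (0 : ℝ) < q := by exact_mod_cast hqpos
  have hN' : (0 : ℝ) < N := by exact_mod_cast hN
  have hq6' : 6 * (N : ℝ) ≤ q := by exact_mod_cast hq6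
  have hψ1 : ψ q ≤ 1 / 2 := by
    have h1 := psi_mul_rpow_le e he he1 hqpos hψ (hsize q hψ)
    have h2 := rpow_two_thirds_ge hq27
    nlinarith
  have huv : (n : ℝ) / N ≤ ((n : ℝ) + 1) / N := by
    apply div_le_div_of_nonneg_right _ hN'.le
    linarith
  have h := cell_lower q hqpos γ (ψ q) hψ hψ1 Set.univ 1 0 (by norm_num)
    (fun X H => by
      have e : ∀ (s : Finset ℤ) (d : DecidablePred (· ∈ (Set.univ : Set ℤ))),
          (@Finset.filter _ _ d s) = s := fun s d => by ext a; simp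
      rw [e, Int.card_Ico]
      simp) _ _ huv
  have hset : thinSet q γ (ψ q) Set.univ = arcSet q γ (ψ q) := by
    ext x
    simp [thinSet, arcSet]
  rw [hset] at h
  refine le_trans ?_ h
  have e1 : ((n : ℝ) + 1) / N - (n : ℝ) / N = 1 / N := by ring
  rw [e1]
  have h6 : 6 ≤ (q : ℝ) / N := by
    rw [le_div_iff₀ hN']; linarith
  have e2 : 2 * (ψ q / q) * (1 * ((q : ℝ) * (1 / N) - 3) - 0) =
      2 * ψ q * (1 / N) - 6 * (ψ q / q) := by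
    field_simp
    ring
  rw [e2]
  have h7 : 6 * (ψ q / q) ≤ 1 / (N : ℝ) * ψ q := by
    have h8 : ψ q / q = (1 / (N : ℝ)) * ψ q * ((N : ℝ) / q) := by
      field_simp
    rw [h8]
    have h9 : (N : ℝ) / q ≤ 1 / 6 := by
      rw [div_le_iff₀ hq']; linarith
    have h10 : 0 ≤ 1 / (N : ℝ) * ψ q := by positivity
    nlinarith
  have e3 : 2 * ψ q * (1 / (N : ℝ)) = 2 * (1 / (N : ℝ) * ψ q) := by ring
  rw [e3]
  linarith

/-- The constant is nonnegative. -/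
private theorem CLJ_nonneg_aux (C θ : ℝ) (hC : 0 ≤ C) (hθ1 : θ < 1 / 2) : 0 ≤ CLJ C 128 5 θ 4 := by
  unfold CLJ C7H
  have h1 : 0 < 1 - Wθ θ := by
    have := Wθ_lt_one θ hθ1
    linarith
  have h2 := Real.sqrt_nonneg (128 : ℝ)
  have h3 := Real.sqrt_nonneg (4 : ℝ)
  positivity

/-- As `P028H.main_chain` (copy its private lemmas `psi_mul_rpow_le`, `cell_chain` above this theorem): `exists_levels_J`, `level_second_J`, `ovl_le_levels_w`, `ae_of_blocks_w`, with the constant `9 * 32 ^ 2 + CLJ C 128 5 θ 4 * 32`. -/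
theorem main_chain_J (γ C e θ : ℝ) (hC : 0 ≤ C) (he : 1 / 2 ≤ e) (he1 : e < 1) (hθ0 : 0 < θ) (hθ1 : θ < 1 / 2)
    (hR : RowBd γ C e)
    (hnz : ∀ n : ℕ, 0 < n → 0 < Vale.Agent.Lib.P028G.nrm ((n : ℝ) * γ)) (ψ : ℕ → ℝ) (h0 : ∀ q, 0 ≤ ψ q)
    (hchain : ∀ q r, 0 < ψ q → 0 < ψ r → Nat.log 2 q < Nat.log 2 r → ψ r * (q : ℝ) ^ θ ≤ ψ q * (r : ℝ) ^ θ)
    (hsize : ∀ q, 0 < ψ q → (q.divisors.card : ℝ) ^ (1 / (1 - e)) * ψ q * (q : ℝ) ^ (1 / (2 - e)) ≤ 1)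
    (hdiv : ¬ Summable (fun q => wq q * ψ q)) :
    ∀ᵐ x : ℝ, ∃ᶠ q : ℕ in atTop, ∃ a : ℤ, |(q : ℝ) * x - a - γ| < ψ q := by
  have h1 : ∀ q : ℕ, 1 ≤ q → ψ q ≤ 1 := by
    intro q hq
    rcases (h0 q).eq_or_lt with h | h
    · rw [← h]; norm_num
    · have hq0 : 0 < q := hq
      have h2 := psi_mul_rpow_le e he he1 hq0 h (hsize q h)
      have hq1 : (1 : ℝ) ≤ q := by exact_mod_cast hq
      have h3 : (1 : ℝ) ≤ (q : ℝ) ^ ((2 : ℝ) / 3) :=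
        Real.one_le_rpow hq1 (by norm_num)
      nlinarith
  have hC7 : 0 ≤ CLJ C 128 5 θ 4 := CLJ_nonneg_aux C θ hC hθ1
  refine ae_of_blocks_w γ ψ wq h0 h1 wq_nonneg wq_le_one hdiv (fun q => arcSet q γ (ψ q))
    (fun q => isOpen_arcSet q γ (ψ q)) (fun q => Set.Subset.rfl) 1
    (9 * 32 ^ 2 + CLJ C 128 5 θ 4 * 32) one_pos (by positivity)
    (fun N hN => cell_chain γ e he he1 ψ hsize N hN) ⟨27, fun B hB1 _ hB3 => ?_⟩
  obtain ⟨I, Q, K, Z, τ, S, hL, hdisj, hmaj, hmass⟩ :=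
    exists_levels_J ψ wq wq_nonneg e θ he he1 hθ0 hθ1 (fun q _ => wq_mul_sigma q) hchain hsize B hB1
  have h2 := ovl_le_levels_w γ ψ wq wq_nonneg B I K S hL.hK hdisj hmaj
  have h3 := level_second_J γ C e 128 5 θ 4 hC he he1.le hR hnz (by norm_num) (by norm_num) hθ0 hθ1
    (by norm_num) wq wq_nonneg wq_le_one I Q K Z τ S hL
  set M : ℝ := ∑ r ∈ I, (∑ q ∈ S r, wq q) / K r with hM
  have hM0 : 0 ≤ M := by
    apply Finset.sum_nonneg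
    intro r _
    have : 0 ≤ ∑ q ∈ S r, wq q := Finset.sum_nonneg fun q _ => wq_nonneg q
    positivity
  have hM32 : M ≤ 32 := by linarith
  have h4 : M ^ 2 ≤ 32 ^ 2 := pow_le_pow_left₀ hM0 hM32 2
  have h5 : CLJ C 128 5 θ 4 * M ≤ CLJ C 128 5 θ 4 * 32 :=
    mul_le_mul_of_nonneg_left hM32 hC7
  linarith

/-- As `P028H.main_parity`. -/
theorem main_parity_J (γ C e θ : ℝ) (hC : 0 ≤ C) (he : 1 / 2 ≤ e) (he1 : e < 1) (hθ0 : 0 < θ) (hθ1 : θ < 1 / 2)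
    (hR : RowBd γ C e)
    (hnz : ∀ n : ℕ, 0 < n → 0 < Vale.Agent.Lib.P028G.nrm ((n : ℝ) * γ)) (ψ : ℕ → ℝ) (h0 : ∀ q, 0 ≤ ψ q)
    (hmono : ∀ q r, 0 < ψ q → 0 < ψ r → 2 * q ≤ r → ψ r * (q : ℝ) ^ θ ≤ ψ q * (r : ℝ) ^ θ)
    (hsize : ∀ q, 0 < ψ q → (q.divisors.card : ℝ) ^ (1 / (1 - e)) * ψ q * (q : ℝ) ^ (1 / (2 - e)) ≤ 1)
    (hdiv : ¬ Summable (fun q => wq q * ψ q)) :
    ∀ᵐ x : ℝ, ∃ᶠ q : ℕ in atTop, ∃ a : ℤ, |(q : ℝ) * x - a - γ| < ψ q := by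
  classical
  -- the part of `ψ` on one parity class of the dyadic exponent
  have key : ∀ b : Bool, ¬ Summable (fun q => wq q * (if (Nat.log 2 q % 2 == 1) = b then ψ q else 0)) →
      ∀ᵐ x : ℝ, ∃ᶠ q : ℕ in atTop, ∃ a : ℤ, |(q : ℝ) * x - a - γ| < ψ q := by
    intro b hb
    set ψ' : ℕ → ℝ := fun q => if (Nat.log 2 q % 2 == 1) = b then ψ q else 0 with hψ'
    have hle : ∀ q, ψ' q ≤ ψ q := fun q => by
      simp only [hψ']; split_ifs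
      · exact le_rfl
      · exact h0 q
    have h0' : ∀ q, 0 ≤ ψ' q := fun q => by
      simp only [hψ']; split_ifs
      · exact h0 q
      · exact le_rfl
    have hsupp : ∀ q, 0 < ψ' q → (Nat.log 2 q % 2 == 1) = b ∧ ψ' q = ψ q := fun q hq => by
      by_cases h : (Nat.log 2 q % 2 == 1) = b
      · exact ⟨h, by simp only [hψ']; rw [if_pos h]⟩
      · simp only [hψ'] at hq; rw [if_neg h] at hq; exact absurd hq (lt_irrefl _)
    refine Vale.Agent.Lib.P028E.ae_mono hle (main_chain_J γ C e θ hC he he1 hθ0 hθ1 hR hnz ψ' h0' ?_ ?_ hb)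
    · intro q r hq hr hlog
      obtain ⟨hq1, hq2⟩ := hsupp q hq
      obtain ⟨hr1, hr2⟩ := hsupp r hr
      rw [hq2, hr2]
      have hqpos : 0 < ψ q := hq2 ▸ hq
      have hrpos : 0 < ψ r := hr2 ▸ hr
      apply hmono q r hqpos hrpos
      have hpar : Nat.log 2 q % 2 = Nat.log 2 r % 2 := by
        have h1 : (Nat.log 2 q % 2 == 1) = (Nat.log 2 r % 2 == 1) := by rw [hq1, hr1]
        by_cases hx : Nat.log 2 q % 2 = 1
        · have : (Nat.log 2 r % 2 == 1) = true := by rw [← h1]; simp [hx]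
          have h3 : Nat.log 2 r % 2 = 1 := by simpa using this
          omega
        · have : (Nat.log 2 r % 2 == 1) = false := by rw [← h1]; simp [hx]
          have h3 : ¬ Nat.log 2 r % 2 = 1 := by simpa using this
          omega
      have hlog2 : Nat.log 2 q + 2 ≤ Nat.log 2 r := by omega
      have hr0 : r ≠ 0 := by
        rintro rfl
        simp at hlog
      have h2 : 2 ^ Nat.log 2 r ≤ r := Nat.pow_log_le_self 2 hr0
      have h3 : q < 2 ^ (Nat.log 2 q + 1) := Nat.lt_pow_succ_log_self (by norm_num) q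
      have h4 : 2 ^ (Nat.log 2 q + 2) ≤ 2 ^ Nat.log 2 r :=
        Nat.pow_le_pow_right (by norm_num) hlog2
      have h5 : 2 ^ (Nat.log 2 q + 2) = 2 * 2 ^ (Nat.log 2 q + 1) := by ring
      omega
    · intro q hq
      obtain ⟨_, hq2⟩ := hsupp q hq
      rw [hq2]
      exact hsize q (hq2 ▸ hq)
  by_cases h1 : Summable (fun q => wq q * (if (Nat.log 2 q % 2 == 1) = true then ψ q else 0))
  · by_cases h2 : Summable (fun q => wq q * (if (Nat.log 2 q % 2 == 1) = false then ψ q else 0))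
    · exfalso
      apply hdiv
      refine (h1.add h2).congr (fun q => ?_)
      by_cases h : (Nat.log 2 q % 2 == 1) = true
      · have h' : ¬ (Nat.log 2 q % 2 == 1) = false := by simp [h]
        rw [if_pos h, if_neg h']; ring
      · have h' : (Nat.log 2 q % 2 == 1) = false := by simpa using h
        rw [if_neg h, if_pos h']; ring
    · exact key false h2
  · exact key true h1

/-- Running minima of `ψ₁(p) (r/p)^θ`. As `P028H.exists_running_min` with `ψ₂ r = if 0 < ψ₁ r then inf' over p (p = r or 2 p ≤ r and 0 < ψ₁ p) of ψ₁ p * (r:ℝ)^θ / (p:ℝ)^θ else 0`.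
`ψ₁ 0 = 0` gives `p ≥ 1` in the competitors, so `(p:ℝ)^θ > 0`. `ψ₂ ≤ ψ₁` from `p = r`. `ψ₁ r ≤ A ψ₂ r`: at the minimiser `p`, `hm`. Last: `2 q ≤ r`; if `p` is the minimiser for `q` (`p = q` or `2 p ≤ q`), then `2 p ≤ r`, `0 < ψ₁ p`, so
`ψ₂ r ≤ ψ₁ p r^θ / p^θ`, and `ψ₂ r q^θ ≤ ψ₁ p r^θ q^θ / p^θ = ψ₂ q r^θ`. -/
theorem exists_running_min_J (ψ₁ : ℕ → ℝ) (h10 : ∀ q, 0 ≤ ψ₁ q) (h00 : ψ₁ 0 = 0) (A θ : ℝ) (hA : 1 ≤ A)
    (hm : ∀ p r, 0 < ψ₁ p → 0 < ψ₁ r → 2 * p ≤ r → ψ₁ r * (p : ℝ) ^ θ ≤ A * ψ₁ p * (r : ℝ) ^ θ) :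
    ∃ ψ₂ : ℕ → ℝ, (∀ r, 0 ≤ ψ₂ r) ∧ (∀ r, ψ₂ r ≤ ψ₁ r) ∧ (∀ r, ψ₁ r ≤ A * ψ₂ r) ∧
      ∀ q r, 0 < ψ₂ q → 0 < ψ₂ r → 2 * q ≤ r → ψ₂ r * (q : ℝ) ^ θ ≤ ψ₂ q * (r : ℝ) ^ θ := by
  classical
  have hT : ∀ r, ((Finset.range (r + 1)).filter (fun p => p = r ∨ (2 * p ≤ r ∧ 0 < ψ₁ p))).Nonempty :=
    fun r => ⟨r, Finset.mem_filter.mpr ⟨Finset.self_mem_range_succ r, Or.inl rfl⟩⟩
  have hself : ∀ r, r ∈ (Finset.range (r + 1)).filter (fun p => p = r ∨ (2 * p ≤ r ∧ 0 < ψ₁ p)) :=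
    fun r => Finset.mem_filter.mpr ⟨Finset.self_mem_range_succ r, Or.inl rfl⟩
  have hpos : ∀ p : ℕ, 0 < ψ₁ p → (0:ℝ) < (p:ℝ) ^ θ := by
    intro p hp
    have hp0 : p ≠ 0 := by
      rintro rfl
      rw [h00] at hp
      exact lt_irrefl _ hp
    exact Real.rpow_pos_of_pos (by exact_mod_cast Nat.pos_of_ne_zero hp0) θ
  have hnn : ∀ p : ℕ, (0:ℝ) ≤ (p:ℝ) ^ θ := fun p => Real.rpow_nonneg (Nat.cast_nonneg p) θ
  let g : ℕ → ℕ → ℝ := fun r p => ψ₁ p * (r:ℝ)^θ / (p:ℝ)^θ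
  have hgself : ∀ r, 0 < ψ₁ r → g r r = ψ₁ r := by
    intro r hr
    have hne := (hpos r hr).ne'
    show ψ₁ r * (r:ℝ)^θ / (r:ℝ)^θ = ψ₁ r
    field_simp
  refine ⟨fun r => if 0 < ψ₁ r then
    ((Finset.range (r + 1)).filter (fun p => p = r ∨ (2 * p ≤ r ∧ 0 < ψ₁ p))).inf' (hT r) (g r) else 0,
    ?_, ?_, ?_, ?_⟩
  · intro r
    show 0 ≤ if 0 < ψ₁ r then _ else _
    split_ifs with hr
    · exact Finset.le_inf' _ _ (fun p _ => div_nonneg (mul_nonneg (h10 p) (hnn r)) (hnn p))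
    · exact le_rfl
  · intro r
    show (if 0 < ψ₁ r then _ else _) ≤ ψ₁ r
    split_ifs with hr
    · exact (Finset.inf'_le _ (hself r)).trans (hgself r hr).le
    · exact h10 r
  · intro r
    show ψ₁ r ≤ A * (if 0 < ψ₁ r then _ else _)
    split_ifs with hr
    · obtain ⟨p, hp, hpmin⟩ := Finset.exists_mem_eq_inf' (hT r) (g r)
      rw [hpmin]
      obtain ⟨-, hp2⟩ := Finset.mem_filter.mp hp
      rcases hp2 with hpr | ⟨hp3, hp4⟩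
      · rw [hpr, hgself r hr]
        nlinarith
      · have hpp := hpos p hp4
        show ψ₁ r ≤ A * (ψ₁ p * (r:ℝ)^θ / (p:ℝ)^θ)
        have h3 := hm p r hp4 hr hp3
        rw [← mul_div_assoc, le_div_iff₀ hpp]
        calc ψ₁ r * (p:ℝ)^θ ≤ A * ψ₁ p * (r:ℝ)^θ := h3
          _ = A * (ψ₁ p * (r:ℝ)^θ) := by ring
    · have : ψ₁ r = 0 := le_antisymm (not_lt.mp hr) (h10 r)
      rw [this]; simp
  · intro q r hq hr hqr
    have hq1 : 0 < ψ₁ q := by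
      by_contra hc
      have : (if 0 < ψ₁ q then
        ((Finset.range (q + 1)).filter (fun p => p = q ∨ (2 * p ≤ q ∧ 0 < ψ₁ p))).inf' (hT q) (g q) else 0) = 0 :=
        if_neg hc
      simp only at hq
      rw [this] at hq
      exact lt_irrefl _ hq
    have hr1 : 0 < ψ₁ r := by
      by_contra hc
      have : (if 0 < ψ₁ r then
        ((Finset.range (r + 1)).filter (fun p => p = r ∨ (2 * p ≤ r ∧ 0 < ψ₁ p))).inf' (hT r) (g r) else 0) = 0 :=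
        if_neg hc
      simp only at hr
      rw [this] at hr
      exact lt_irrefl _ hr
    show (if 0 < ψ₁ r then _ else _) * (q:ℝ)^θ ≤ (if 0 < ψ₁ q then _ else _) * (r:ℝ)^θ
    rw [if_pos hr1, if_pos hq1]
    obtain ⟨p, hp, hpmin⟩ := Finset.exists_mem_eq_inf' (hT q) (g q)
    rw [hpmin]
    obtain ⟨-, hp2⟩ := Finset.mem_filter.mp hp
    have hmem : p ∈ (Finset.range (r + 1)).filter (fun p => p = r ∨ (2 * p ≤ r ∧ 0 < ψ₁ p)) := by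
      refine Finset.mem_filter.mpr ⟨?_, Or.inr ?_⟩
      · rcases hp2 with hpq | ⟨hp3, -⟩
        · exact Finset.mem_range.mpr (by omega)
        · exact Finset.mem_range.mpr (by omega)
      · rcases hp2 with hpq | ⟨hp3, hp4⟩
        · rw [hpq]
          exact ⟨hqr, hq1⟩
        · exact ⟨by omega, hp4⟩
    have hle := Finset.inf'_le (g r) hmem
    calc _ ≤ g r p * (q:ℝ)^θ := mul_le_mul_of_nonneg_right hle (hnn q)
      _ = g q p * (r:ℝ)^θ := by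
        show ψ₁ p * (r:ℝ)^θ / (p:ℝ)^θ * (q:ℝ)^θ = ψ₁ p * (q:ℝ)^θ / (p:ℝ)^θ * (r:ℝ)^θ
        ring

/-- As `P028H.main_general` with `exists_running_min_J`, `main_parity_J`; `ψ₁ q = ψ q` if `max q₀ 1 ≤ q`, else `0`. -/
theorem main_general_J (γ C e θ : ℝ) (hC : 0 ≤ C) (he : 1 / 2 ≤ e) (he1 : e < 1) (hθ0 : 0 < θ) (hθ1 : θ < 1 / 2)
    (hR : RowBd γ C e)
    (hnz : ∀ n : ℕ, 0 < n → 0 < Vale.Agent.Lib.P028G.nrm ((n : ℝ) * γ)) (ψ : ℕ → ℝ) (h0 : ∀ q, 0 ≤ ψ q) (A : ℝ) (hA : 1 ≤ A)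
    (q₀ : ℕ) (hmono : ∀ q r, q₀ ≤ q → 0 < ψ q → 0 < ψ r → 2 * q ≤ r → ψ r * (q : ℝ) ^ θ ≤ A * ψ q * (r : ℝ) ^ θ)
    (hsize : ∀ q, q₀ ≤ q → 0 < ψ q →
      (q.divisors.card : ℝ) ^ (1 / (1 - e)) * ψ q * (q : ℝ) ^ (1 / (2 - e)) ≤ 1)
    (hdiv : ¬ Summable (fun q => wq q * ψ q)) :
    ∀ᵐ x : ℝ, ∃ᶠ q : ℕ in atTop, ∃ a : ℤ, |(q : ℝ) * x - a - γ| < ψ q := by
  classical
  obtain ⟨ψ₁, h10, h1le, h1supp, hdiv1, h100⟩ : ∃ ψ₁ : ℕ → ℝ, (∀ q, 0 ≤ ψ₁ q) ∧ (∀ q, ψ₁ q ≤ ψ q) ∧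
      (∀ q, 0 < ψ₁ q → q₀ ≤ q ∧ ψ₁ q = ψ q) ∧ ¬ Summable (fun q => wq q * ψ₁ q) ∧ ψ₁ 0 = 0 := by
    refine ⟨fun q => if max q₀ 1 ≤ q then ψ q else 0, fun q => ?_, fun q => ?_, fun q hq => ?_,
      fun hs => ?_, ?_⟩
    · show 0 ≤ if max q₀ 1 ≤ q then ψ q else 0
      split_ifs
      · exact h0 q
      · exact le_rfl
    · show (if max q₀ 1 ≤ q then ψ q else 0) ≤ ψ q
      split_ifs
      · exact le_rfl
      · exact h0 q
    · by_cases h : max q₀ 1 ≤ q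
      · exact ⟨le_trans (le_max_left _ _) h, if_pos h⟩
      · have : (if max q₀ 1 ≤ q then ψ q else 0) = 0 := if_neg h
        simp only at hq
        rw [this] at hq
        exact absurd hq (lt_irrefl _)
    · apply hdiv
      have hfin : Summable (fun q => wq q * ψ q - wq q * (if max q₀ 1 ≤ q then ψ q else 0)) := by
        apply summable_of_ne_finset_zero (s := Finset.range (max q₀ 1))
        intro q hq
        have hq' : max q₀ 1 ≤ q := not_lt.mp (fun hlt => hq (Finset.mem_range.mpr hlt))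
        rw [if_pos hq']
        ring
      refine (hs.add hfin).congr (fun q => ?_)
      ring
    · show (if max q₀ 1 ≤ 0 then ψ 0 else 0) = 0
      rw [if_neg]
      intro hle
      have := le_trans (le_max_right q₀ 1) hle
      omega
  obtain ⟨ψ₂, h20, h2le1, h2ge, hmono2⟩ := exists_running_min_J ψ₁ h10 h100 A θ hA (by
    intro p r hp hr hpr
    obtain ⟨hp1, hp2⟩ := h1supp p hp
    obtain ⟨-, hr2⟩ := h1supp r hr
    rw [hp2, hr2]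
    exact hmono p r hp1 (hp2 ▸ hp) (hr2 ▸ hr) hpr)
  have hsize2 : ∀ q, 0 < ψ₂ q →
      (q.divisors.card : ℝ) ^ (1 / (1 - e)) * ψ₂ q * (q : ℝ) ^ (1 / (2 - e)) ≤ 1 := by
    intro q hq
    have hq1 : 0 < ψ₁ q := lt_of_lt_of_le hq (h2le1 q)
    obtain ⟨hq2, hq3⟩ := h1supp q hq1
    have hψq : 0 < ψ q := hq3 ▸ hq1
    refine le_trans ?_ (hsize q hq2 hψq)
    have h1 : ψ₂ q ≤ ψ q := le_trans (h2le1 q) (h1le q)
    have ha : (0 : ℝ) ≤ (q.divisors.card : ℝ) ^ (1 / (1 - e)) := by positivity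
    have hb : (0 : ℝ) ≤ (q : ℝ) ^ (1 / (2 - e)) := by positivity
    exact mul_le_mul_of_nonneg_right (mul_le_mul_of_nonneg_left h1 ha) hb
  have hdiv2 : ¬ Summable (fun q => wq q * ψ₂ q) := by
    intro hs
    apply hdiv1
    refine Summable.of_nonneg_of_le (fun q => mul_nonneg (wq_nonneg q) (h10 q)) (fun q => ?_)
      (hs.mul_left A)
    have := mul_le_mul_of_nonneg_left (h2ge q) (wq_nonneg q)
    calc wq q * ψ₁ q ≤ wq q * (A * ψ₂ q) := this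
      _ = A * (wq q * ψ₂ q) := by ring
  exact Vale.Agent.Lib.P028E.ae_mono (fun q => le_trans (h2le1 q) (h1le q))
    (main_parity_J γ C e θ hC he he1 hθ0 hθ1 hR hnz ψ₂ h20 hmono2 hsize2 hdiv2)

/-- As `P028H.final_dio`, with `main_general_J`. -/
theorem final_dio_J (γ κ w θ : ℝ) (hκ : 0 < κ) (hw : 1 ≤ w) (hθ0 : 0 < θ) (hθ1 : θ < 1 / 2)
    (hdio : ∀ n : ℕ, 0 < n → ∀ a : ℤ, κ / (n : ℝ) ^ w ≤ |(n : ℝ) * γ - a|)
    (ψ : ℕ → ℝ) (h0 : ∀ q, 0 ≤ ψ q) (A : ℝ) (hA : 1 ≤ A) (q₀ : ℕ)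
    (hmono : ∀ q r, q₀ ≤ q → 0 < ψ q → 0 < ψ r → 2 * q ≤ r → ψ r * (q : ℝ) ^ θ ≤ A * ψ q * (r : ℝ) ^ θ)
    (hsize : ∀ q, q₀ ≤ q → 0 < ψ q →
      (q.divisors.card : ℝ) ^ (1 + w ^ 2) * ψ q * (q : ℝ) ^ ((1 + w ^ 2) / (2 + w ^ 2)) ≤ 1)
    (hdiv : ¬ Summable (fun q : ℕ => (Nat.totient q : ℝ) / q * ψ q)) :
    ∀ᵐ x : ℝ, ∃ᶠ q : ℕ in atTop, ∃ a : ℤ, |(q : ℝ) * x - a - γ| < ψ q := by
  have hD : Dio γ κ w := hdio
  have hw2 : (0 : ℝ) < 1 + w ^ 2 := by positivity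
  have hw3 : (0 : ℝ) < 2 + w ^ 2 := by positivity
  have he : (1 : ℝ) / 2 ≤ w ^ 2 / (1 + w ^ 2) := by
    rw [div_le_div_iff₀ (by norm_num) hw2]
    nlinarith
  have he1 : w ^ 2 / (1 + w ^ 2) < 1 := by
    rw [div_lt_one hw2]
    linarith
  have hC : (0 : ℝ) ≤ 24 + 4 / κ + 6 * κ ^ (-(1 / w)) := by
    have : 0 < κ ^ (-(1 / w)) := Real.rpow_pos_of_pos hκ _
    positivity
  have hE1 : 1 / (1 - w ^ 2 / (1 + w ^ 2)) = 1 + w ^ 2 := by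
    field_simp
    ring
  have hE2 : 1 / (2 - w ^ 2 / (1 + w ^ 2)) = (1 + w ^ 2) / (2 + w ^ 2) := by
    have : (2 : ℝ) - w ^ 2 / (1 + w ^ 2) = (2 + w ^ 2) / (1 + w ^ 2) := by
      field_simp
      ring
    rw [this, one_div_div]
  refine main_general_J γ _ _ θ hC he he1 hθ0 hθ1 (row_bd γ κ w hκ hw hD)
    (fun n hn => hD.nrm_pos hκ n hn) ψ h0 A hA q₀ hmono ?_ ?_
  · intro q hq hq0
    rw [hE1, hE2]
    exact hsize q hq hq0
  · intro hs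
    apply hdiv
    refine Summable.of_nonneg_of_le (fun q => ?_) (fun q => ?_) hs
    · exact mul_nonneg (by positivity) (h0 q)
    · exact mul_le_mul_of_nonneg_right (totient_le_wq q) (h0 q)

/-- As `P028H.final_power` (same divisor bound argument for `hsize`), with `final_dio_J`. -/
theorem final_power_J (γ κ w β' C₁ θ : ℝ) (hκ : 0 < κ) (hw : 1 ≤ w) (hθ0 : 0 < θ) (hθ1 : θ < 1 / 2)
    (hdio : ∀ n : ℕ, 0 < n → ∀ a : ℤ, κ / (n : ℝ) ^ w ≤ |(n : ℝ) * γ - a|)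
    (hβ : (1 + w ^ 2) / (2 + w ^ 2) < β')
    (ψ : ℕ → ℝ) (h0 : ∀ q, 0 ≤ ψ q) (A : ℝ) (hA : 1 ≤ A) (q₀ : ℕ)
    (hmono : ∀ q r, q₀ ≤ q → 0 < ψ q → 0 < ψ r → 2 * q ≤ r → ψ r * (q : ℝ) ^ θ ≤ A * ψ q * (r : ℝ) ^ θ)
    (hsize : ∀ q, q₀ ≤ q → ψ q ≤ C₁ * (q : ℝ) ^ (-β'))
    (hdiv : ¬ Summable (fun q : ℕ => (Nat.totient q : ℝ) / q * ψ q)) :
    ∀ᵐ x : ℝ, ∃ᶠ q : ℕ in atTop, ∃ a : ℤ, |(q : ℝ) * x - a - γ| < ψ q := by
  set β : ℝ := (1 + w ^ 2) / (2 + w ^ 2) with hβdef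
  have hw2 : (0 : ℝ) < 1 + w ^ 2 := by positivity
  set δ : ℝ := (β' - β) / 2 with hδ
  have hδ0 : 0 < δ := by
    rw [hδ]
    linarith
  obtain ⟨C, hC0, hC⟩ := divisor_bound (δ / (1 + w ^ 2)) (div_pos hδ0 hw2)
  -- the constant
  set M : ℝ := C ^ (1 + w ^ 2) * |C₁| with hM
  have hM0 : 0 ≤ M := by positivity
  have htend : Tendsto (fun q : ℕ => ((q : ℝ)) ^ δ) atTop atTop :=
    (tendsto_rpow_atTop hδ0).comp tendsto_natCast_atTop_atTop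
  obtain ⟨q₁, hq₁⟩ := (htend.eventually_ge_atTop M).exists_forall_of_atTop
  refine final_dio_J γ κ w θ hκ hw hθ0 hθ1 hdio ψ h0 A hA (max q₀ (max q₁ 1)) ?_ ?_ hdiv
  · intro q r hq hq0 hr0 hqr
    exact hmono q r (le_trans (le_max_left _ _) hq) hq0 hr0 hqr
  · intro q hq hq0
    have hq₀ : q₀ ≤ q := le_trans (le_max_left _ _) hq
    have hq₁' : q₁ ≤ q := le_trans (le_trans (le_max_left _ _) (le_max_right _ _)) hq
    have hq1 : 1 ≤ q := le_trans (le_trans (le_max_right _ _) (le_max_right _ _)) hq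
    have hqpos : (0 : ℝ) < q := by exact_mod_cast hq1
    have hτ := hC q hq1
    have hτ0 : (0 : ℝ) ≤ (q.divisors.card : ℝ) := Nat.cast_nonneg _
    have h1 : (q.divisors.card : ℝ) ^ (1 + w ^ 2) ≤ C ^ (1 + w ^ 2) * (q : ℝ) ^ δ := by
      calc (q.divisors.card : ℝ) ^ (1 + w ^ 2)
          ≤ (C * (q : ℝ) ^ (δ / (1 + w ^ 2))) ^ (1 + w ^ 2) :=
            Real.rpow_le_rpow hτ0 hτ hw2.le
        _ = C ^ (1 + w ^ 2) * (q : ℝ) ^ δ := by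
            rw [Real.mul_rpow hC0.le (Real.rpow_nonneg hqpos.le _), ← Real.rpow_mul hqpos.le,
              div_mul_cancel₀ _ hw2.ne']
    have h2 : ψ q ≤ |C₁| * (q : ℝ) ^ (-β') := by
      refine (hsize q hq₀).trans ?_
      exact mul_le_mul_of_nonneg_right (le_abs_self _) (Real.rpow_nonneg hqpos.le _)
    have hqδ : M ≤ (q : ℝ) ^ δ := hq₁ q hq₁'
    have hqδ0 : 0 < (q : ℝ) ^ δ := Real.rpow_pos_of_pos hqpos _
    have hqβ0 : 0 < (q : ℝ) ^ β := Real.rpow_pos_of_pos hqpos _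
    have hexp : (q : ℝ) ^ δ * (q : ℝ) ^ δ * (q : ℝ) ^ (-β') * (q : ℝ) ^ β = 1 := by
      rw [← Real.rpow_add hqpos, ← Real.rpow_add hqpos, ← Real.rpow_add hqpos]
      have : δ + δ + -β' + β = 0 := by
        rw [hδ]
        ring
      rw [this, Real.rpow_zero]
    have hC1 : (0 : ℝ) < C ^ (1 + w ^ 2) := Real.rpow_pos_of_pos hC0 _
    have hτp : (0 : ℝ) ≤ (q.divisors.card : ℝ) ^ (1 + w ^ 2) := Real.rpow_nonneg hτ0 _
    calc (q.divisors.card : ℝ) ^ (1 + w ^ 2) * ψ q * (q : ℝ) ^ β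
        ≤ (C ^ (1 + w ^ 2) * (q : ℝ) ^ δ) * (|C₁| * (q : ℝ) ^ (-β')) * (q : ℝ) ^ β := by
          apply mul_le_mul_of_nonneg_right _ hqβ0.le
          exact mul_le_mul h1 h2 hq0.le (by positivity)
      _ = M * ((q : ℝ) ^ δ * (q : ℝ) ^ (-β') * (q : ℝ) ^ β) := by
          rw [hM]
          ring
      _ ≤ (q : ℝ) ^ δ * ((q : ℝ) ^ δ * (q : ℝ) ^ (-β') * (q : ℝ) ^ β) := by
          apply mul_le_mul_of_nonneg_right hqδ
          have := Real.rpow_pos_of_pos hqpos (-β')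
          positivity
      _ = 1 := by
          rw [← hexp]
          ring

/-- As `P028H.union_dio`. -/
theorem union_dio_J (γ κ w θ : ℝ) (hκ : 0 < κ) (hw : 1 ≤ w) (hθ0 : 0 < θ) (hθ1 : θ < 1 / 2)
    (hdio : ∀ n : ℕ, 0 < n → ∀ a : ℤ, κ / (n : ℝ) ^ w ≤ |(n : ℝ) * γ - a|)
    (ψ : ℕ → ℝ) (h0 : ∀ q, 0 ≤ ψ q) (A : ℝ) (hA : 1 ≤ A) (q₀ : ℕ)
    (hmono : ∀ q r : ℕ, q₀ ≤ q → 1 / (q : ℝ) < ψ q → 1 / (r : ℝ) < ψ r → 2 * q ≤ r →
      ψ r * (q : ℝ) ^ θ ≤ A * ψ q * (r : ℝ) ^ θ)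
    (hsize : ∀ q, q₀ ≤ q → 1 / (q : ℝ) < ψ q →
      (q.divisors.card : ℝ) ^ (1 + w ^ 2) * ψ q * (q : ℝ) ^ ((1 + w ^ 2) / (2 + w ^ 2)) ≤ 1)
    (hdiv : ¬ Summable (fun q : ℕ => (Nat.totient q : ℝ) / q * ψ q)) :
    ∀ᵐ x : ℝ, ∃ᶠ q : ℕ in atTop, ∃ a : ℤ, |(q : ℝ) * x - a - γ| < ψ q := by
  rcases split_div h0 hdiv with h | h
  · exact Vale.Agent.Results.P028.AA_erdos_vaaler.result γ ψ h0 (Or.inl h)
  · have key := final_dio_J γ κ w θ hκ hw hθ0 hθ1 hdio (upper ψ) (upper_nonneg h0) A hA q₀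
      (fun q r hq hq' hr' hqr => by
        obtain ⟨h1, e1⟩ := upper_pos hq'
        obtain ⟨h2, e2⟩ := upper_pos hr'
        rw [e1, e2]
        exact hmono q r hq h1 h2 hqr)
      (fun q hq hq' => by
        obtain ⟨h1, e1⟩ := upper_pos hq'
        rw [e1]
        exact hsize q hq h1) h
    exact Vale.Agent.Lib.P028E.ae_mono (upper_le h0) key

/-- As `P028H.final_nonLiouville` + `P028H.union_nonLiouville`, with `final_power_J`; the same `β` for all `θ`. -/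
theorem union_nonLiouville_J (γ : ℝ) (hirr : Irrational γ) (hL : ¬ Liouville γ) :
    ∃ β : ℝ, β < 1 ∧ ∀ (θ : ℝ), 0 < θ → θ < 1 / 2 → ∀ (ψ : ℕ → ℝ) (A C₁ : ℝ) (q₀ : ℕ), (∀ q, 0 ≤ ψ q) → 1 ≤ A →
      (∀ q r : ℕ, q₀ ≤ q → 1 / (q : ℝ) < ψ q → 1 / (r : ℝ) < ψ r → 2 * q ≤ r →
        ψ r * (q : ℝ) ^ θ ≤ A * ψ q * (r : ℝ) ^ θ) →
      (∀ q, q₀ ≤ q → 1 / (q : ℝ) < ψ q → ψ q ≤ C₁ * (q : ℝ) ^ (-β)) →
      ¬ Summable (fun q : ℕ => (Nat.totient q : ℝ) / q * ψ q) →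
      ∀ᵐ x : ℝ, ∃ᶠ q : ℕ in atTop, ∃ a : ℤ, |(q : ℝ) * x - a - γ| < ψ q := by
  obtain ⟨c, n, hc, hdio0⟩ := dio_of_not_liouville γ hirr hL
  set w : ℝ := (n : ℝ) + 1 with hw
  have hw1 : 1 ≤ w := by
    rw [hw]
    have : (0 : ℝ) ≤ n := Nat.cast_nonneg _
    linarith
  have hw3 : (0 : ℝ) < 2 + w ^ 2 := by positivity
  have hdio : ∀ k : ℕ, 0 < k → ∀ a : ℤ, c / (k : ℝ) ^ w ≤ |(k : ℝ) * γ - a| := by
    intro k hk a
    have hk1 : (1 : ℝ) ≤ k := by exact_mod_cast hk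
    have hk0 : (0 : ℝ) < k := by linarith
    have h := hdio0 k hk (-a)
    have h' : c ≤ (k : ℝ) ^ n * |(k : ℝ) * γ - a| := by
      have : (k : ℝ) * γ + ((-a : ℤ) : ℝ) = (k : ℝ) * γ - a := by
        push_cast
        ring
      rwa [this] at h
    have hpow : (k : ℝ) ^ w = (k : ℝ) ^ n * k := by
      rw [hw, Real.rpow_add hk0, Real.rpow_one, Real.rpow_natCast]
    rw [hpow, div_le_iff₀ (by positivity)]
    have hpn : (0 : ℝ) < (k : ℝ) ^ n := by positivity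
    have habs : 0 ≤ |(k : ℝ) * γ - a| := abs_nonneg _
    have : (k : ℝ) ^ n * |(k : ℝ) * γ - a| ≤ |(k : ℝ) * γ - a| * ((k : ℝ) ^ n * k) := by
      have h3 : (k : ℝ) ^ n * |(k : ℝ) * γ - a| * 1 ≤ (k : ℝ) ^ n * |(k : ℝ) * γ - a| * k :=
        mul_le_mul_of_nonneg_left hk1 (by positivity)
      nlinarith
    linarith
  refine ⟨(1 + w ^ 2) / (2 + w ^ 2) + 1 / (2 * (2 + w ^ 2)), ?_, ?_⟩
  · have : (1 + w ^ 2) / (2 + w ^ 2) + 1 / (2 * (2 + w ^ 2)) = 1 - 1 / (2 * (2 + w ^ 2)) := by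
      field_simp
      ring
    rw [this]
    have : 0 < 1 / (2 * (2 + w ^ 2)) := by positivity
    linarith
  · intro θ hθ0 hθ1 ψ A C₁ q₀ h0 hA hmono hsize hdiv
    rcases split_div h0 hdiv with h | h
    · exact Vale.Agent.Results.P028.AA_erdos_vaaler.result γ ψ h0 (Or.inl h)
    · have key := final_power_J γ c w ((1 + w ^ 2) / (2 + w ^ 2) + 1 / (2 * (2 + w ^ 2))) (max C₁ 0) θ
        hc hw1 hθ0 hθ1 hdio
        (by
          have : 0 < 1 / (2 * (2 + w ^ 2)) := by positivity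
          linarith)
        (upper ψ) (upper_nonneg h0) A hA q₀
        (fun q r hq hq' hr' hqr => by
          obtain ⟨h1, e1⟩ := upper_pos hq'
          obtain ⟨h2, e2⟩ := upper_pos hr'
          rw [e1, e2]
          exact hmono q r hq h1 h2 hqr)
        (fun q hq => by
          have hp : 0 ≤ (q : ℝ) ^ (-((1 + w ^ 2) / (2 + w ^ 2) + 1 / (2 * (2 + w ^ 2)))) :=
            Real.rpow_nonneg (Nat.cast_nonneg _) _
          by_cases hq' : 0 < upper ψ q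
          · obtain ⟨h1, e1⟩ := upper_pos hq'
            rw [e1]
            exact (hsize q hq h1).trans (mul_le_mul_of_nonneg_right (le_max_left _ _) hp)
          · have : upper ψ q = 0 := le_antisymm (not_lt.1 hq') (upper_nonneg h0 q)
            rw [this]
            exact mul_nonneg (le_max_right _ _) hp) h
      exact Vale.Agent.Lib.P028E.ae_mono (upper_le h0) key

end Vale.Agent.Lib.P028J
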