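import Vale.Agent.Lib.P028H.Pair

/-! Pairs of levels with `Qa ≤ Qb` and `Ka ≥ Kb`. -/

open scoped BigOperators ComplexConjugate Real
open Finset
open Vale.Agent.Lib.P028G Vale.Agent.Lib.P028H

namespace Vale.Agent.Lib.P028J

/-- As `P028H.R_div_le_w`, for `A = y Q / K ≥ 1`. Third term: `(Z + τ) (y Q)^e / K ≤ C10 K^(1-e) (y Q)^e / K = C10 A^e ≤ C10 A`. Second term: `min y (1/Z) ≤ √(y/Z)`, so
`τ Q min y (1/Z) / K ≤ √(τ² Q / (Z K)) √A ≤ √C9 √A ≤ √C9 A`. First term `(3 + 48 C) A`. -/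
theorem R_div_le_big (C C9 C10 e τ K Q Z y : ℝ) (hC : 0 ≤ C) (hC9 : 0 ≤ C9) (hC10 : 0 ≤ C10)
    (he : 1 / 2 ≤ e) (he1 : e ≤ 1) (hτ : 0 ≤ τ)
    (hK : 0 < K) (hQ : 0 < Q) (hZ : 0 < Z) (hy : 0 < y) (hA : 1 ≤ y * Q / K)
    (hs : τ ^ 2 * Q ≤ C9 * Z * K) (hz : Z + τ ≤ C10 * K ^ (1 - e)) :
    ((3 + 48 * C) * y * Q + 3 * τ * Q * min y (1 / Z) + 16 * C * (Z + τ) * (y * Q) ^ e) / K ≤
      C7H C C9 C10 * (y * Q / K) := by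
  unfold C7H
  obtain ⟨A, hAdef⟩ : ∃ A, A = y * Q / K := ⟨_, rfl⟩
  rw [← hAdef] at hA ⊢
  have hA0 : 0 < A := by linarith
  have hAs : Real.sqrt A ≤ A := by
    rw [Real.sqrt_le_left hA0.le]
    nlinarith
  obtain ⟨m, hm⟩ : ∃ m, m = min y (1 / Z) := ⟨_, rfl⟩
  rw [← hm]
  have hm1 : m ≤ y := by rw [hm]; exact min_le_left _ _
  have hm2 : m ≤ 1 / Z := by rw [hm]; exact min_le_right _ _
  have hm0 : 0 < m := by rw [hm]; exact lt_min hy (by positivity)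
  have hyQ : y * Q = A * K := by rw [hAdef]; field_simp
  obtain ⟨W, hW⟩ : ∃ W, W = (y * Q) ^ e := ⟨_, rfl⟩
  rw [← hW]
  have hdecomp : ((3 + 48 * C) * y * Q + 3 * τ * Q * m + 16 * C * (Z + τ) * W) / K =
      (3 + 48 * C) * A + 3 * (τ * (Q / K) * m) + 16 * C * ((Z + τ) * W / K) := by
    rw [hAdef]; field_simp
  rw [hdecomp]
  have h1 : 0 ≤ 3 + 48 * C := by positivity
  have h2 : τ * (Q / K) * m ≤ Real.sqrt C9 * Real.sqrt A := by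
    rw [← Real.sqrt_mul hC9]
    apply Real.le_sqrt_of_sq_le
    have h3 : m ^ 2 ≤ y * (1 / Z) := by
      rw [sq]; exact mul_le_mul hm1 hm2 hm0.le hy.le
    calc (τ * (Q / K) * m) ^ 2 = τ ^ 2 * (Q / K) ^ 2 * m ^ 2 := by ring
      _ ≤ τ ^ 2 * (Q / K) ^ 2 * (y * (1 / Z)) := by gcongr
      _ = (τ ^ 2 * Q / (Z * K)) * A := by rw [hAdef]; field_simp
      _ ≤ C9 * A := by
        apply mul_le_mul_of_nonneg_right _ hA0.le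
        rw [div_le_iff₀ (by positivity)]
        nlinarith
  have h3 : (Z + τ) * W / K ≤ C10 * A := by
    have hW0 : 0 ≤ W := by rw [hW]; positivity
    have hWe : W = A ^ e * K ^ e := by
      rw [hW, hyQ, Real.mul_rpow hA0.le hK.le]
    have hAe : A ^ e ≤ A := by
      calc A ^ e ≤ A ^ (1 : ℝ) := Real.rpow_le_rpow_of_exponent_le hA he1
        _ = A := Real.rpow_one A
    have hKe : K ^ (1 - e) * K ^ e = K := by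
      rw [← Real.rpow_add hK]; simp
    have hAe0 : 0 ≤ A ^ e := by positivity
    have hKe0 : 0 ≤ K ^ e := by positivity
    calc (Z + τ) * W / K ≤ (C10 * K ^ (1 - e)) * W / K := by gcongr
      _ = C10 * A ^ e * (K ^ (1 - e) * K ^ e) / K := by rw [hWe]; ring
      _ = C10 * A ^ e := by rw [hKe]; field_simp
      _ ≤ C10 * A := by gcongr
  have h2' : Real.sqrt C9 * Real.sqrt A ≤ Real.sqrt C9 * A :=
    mul_le_mul_of_nonneg_left hAs (Real.sqrt_nonneg _)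
  have h5 := mul_le_mul_of_nonneg_left h3 (by positivity : 0 ≤ 16 * C)
  nlinarith

/-- As `P028G.sqrt_pair_le`, first lines: `(1/(Ka Kb)) √(Sa Ra) √(Sb Rb) = √((Sa/Ka)(Ra/Ka)) √((Sb/Kb)(Rb/Kb)) = √((Sa/Ka)(Sb/Kb)) √((Ra/Ka)(Rb/Kb))`. -/
theorem sqrt_pair_le2 (Sa Sb Ra Rb Ka Kb D : ℝ) (hSa : 0 ≤ Sa) (hSb : 0 ≤ Sb) (hRa : 0 ≤ Ra) (hRb : 0 ≤ Rb)
    (hKa : 0 < Ka) (hKb : 0 < Kb) (hD : 0 ≤ D) (h : (Ra / Ka) * (Rb / Kb) ≤ D ^ 2) :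
    (1 / (Ka * Kb)) * (Real.sqrt (Sa * Ra) * Real.sqrt (Sb * Rb)) ≤
      Real.sqrt ((Sa / Ka) * (Sb / Kb)) * D := by
  have hMa : 0 ≤ Sa / Ka := by positivity
  have hMb : 0 ≤ Sb / Kb := by positivity
  have hra : 0 ≤ Ra / Ka := by positivity
  have hrb : 0 ≤ Rb / Kb := by positivity
  have e1 : Real.sqrt (Sa * Ra) = Ka * Real.sqrt ((Sa / Ka) * (Ra / Ka)) := by
    have : Sa * Ra = Ka ^ 2 * ((Sa / Ka) * (Ra / Ka)) := by field_simp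
    rw [this, Real.sqrt_mul (by positivity), Real.sqrt_sq hKa.le]
  have e2 : Real.sqrt (Sb * Rb) = Kb * Real.sqrt ((Sb / Kb) * (Rb / Kb)) := by
    have : Sb * Rb = Kb ^ 2 * ((Sb / Kb) * (Rb / Kb)) := by field_simp
    rw [this, Real.sqrt_mul (by positivity), Real.sqrt_sq hKb.le]
  have e3 : (1 / (Ka * Kb)) * (Real.sqrt (Sa * Ra) * Real.sqrt (Sb * Rb)) =
      Real.sqrt ((Sa / Ka) * (Ra / Ka)) * Real.sqrt ((Sb / Kb) * (Rb / Kb)) := by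
    rw [e1, e2]; field_simp
  rw [e3, Real.sqrt_mul hMa, Real.sqrt_mul hMb]
  have h1 : Real.sqrt (Ra / Ka) * Real.sqrt (Rb / Kb) ≤ D := by
    rw [← Real.sqrt_mul hra]
    exact Real.sqrt_le_iff.mpr ⟨hD, h⟩
  have h2 : 0 ≤ Real.sqrt (Sa / Ka) * Real.sqrt (Sb / Kb) := by positivity
  calc Real.sqrt (Sa / Ka) * Real.sqrt (Ra / Ka) * (Real.sqrt (Sb / Kb) * Real.sqrt (Rb / Kb))
      = Real.sqrt (Sa / Ka) * Real.sqrt (Sb / Kb) * (Real.sqrt (Ra / Ka) * Real.sqrt (Rb / Kb)) := by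
        ring
    _ ≤ Real.sqrt (Sa / Ka) * Real.sqrt (Sb / Kb) * D := mul_le_mul_of_nonneg_left h1 h2
    _ = _ := by rw [Real.sqrt_mul hMa]

/-- A pair with `Qa ≤ Qb`, `Kb ≤ Ka`. Let `T = Qb/Qa ≥ 1`, `s = Ka/Kb ≥ 1`, `s ≤ A' T^θ` by `hKθ`. Let `y = min (Kb/Qa) (Ka/Qb)`, `u = y Qa/Ka`, `v = y Qb/Kb`.
Then `u ≤ Kb/Ka ≤ 1`, `u ≤ Qa/Qb = 1/T` (from `y ≤ Ka/Qb`), `v ≤ Ka/Kb = s` (from `y ≤ Ka/Qb`). `pair_bound_w` as in the proof of `pair_norm_w`, with `Ra, Rb` as there.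
`R_div_le_w` gives `Ra/Ka ≤ C7 √u`. If `v ≤ 1`, `R_div_le_w` gives `Rb/Kb ≤ C7 √v`, so `(Ra/Ka)(Rb/Kb) ≤ C7² √(u v) ≤ C7² √(s/T) ≤ C7² √A' T^((θ-1)/2) ≤ C7² A' T^(θ-1/2)` (`(θ-1)/2 ≤ θ-1/2`, `T ≥ 1`).
If `v ≥ 1`, `R_div_le_big` gives `Rb/Kb ≤ C7 v ≤ C7 s`, so `(Ra/Ka)(Rb/Kb) ≤ C7² T^(-1/2) s ≤ C7² A' T^(θ-1/2)`.
In both cases `(Ra/Ka)(Rb/Kb) ≤ D²` with `D = C7 √A' (Qa/Qb)^(1/4-θ/2)`. Conclude with `sqrt_pair_le2`, as at the end of `pair_norm_w`. -/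
theorem pair_anti (γ C e C9 C10 τa τb A' θ : ℝ) (hC : 0 ≤ C) (he : 1 / 2 ≤ e) (he1 : e ≤ 1)
    (hR : RowBd γ C e) (hnz : ∀ n : ℕ, 0 < n → 0 < nrm ((n : ℝ) * γ))
    (hC9 : 0 ≤ C9) (hC10 : 0 ≤ C10) (hτa : 1 ≤ τa) (hτb : 1 ≤ τb) (hA' : 1 ≤ A') (hθ0 : 0 < θ) (hθ1 : θ < 1 / 2)
    (Ka Kb Qa Qb Za Zb : ℕ)
    (hKa : 0 < Ka) (hKb : 0 < Kb)
    (hQa : 0 < Qa) (hQb : 0 < Qb) (hZa1 : 1 ≤ Za) (hZb1 : 1 ≤ Zb) (hZa : Za ^ 3 ≤ Qa)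
    (hZb : Zb ^ 3 ≤ Qb) (Sa Sb : Finset ℕ)
    (hSa : ∀ q ∈ Sa, Qa ≤ q ∧ q < 2 * Qa) (hSb : ∀ r ∈ Sb, Qb ≤ r ∧ r < 2 * Qb)
    (f : ℕ → ℝ) (hf0 : ∀ q, 0 ≤ f q) (hf1 : ∀ q, f q ≤ 1)
    (hσa : ∀ q ∈ Sa, f q * (∑ d ∈ q.divisors, (d : ℝ)) ≤ q)
    (hσb : ∀ r ∈ Sb, f r * (∑ d ∈ r.divisors, (d : ℝ)) ≤ r)
    (hτa' : ∀ q ∈ Sa, (q.divisors.card : ℝ) ≤ τa) (hτb' : ∀ r ∈ Sb, (r.divisors.card : ℝ) ≤ τb)
    (hsa : τa ^ 2 * Qa ≤ C9 * Za * Ka) (hsb : τb ^ 2 * Qb ≤ C9 * Zb * Kb)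
    (hza : (Za : ℝ) + τa ≤ C10 * (Ka : ℝ) ^ (1 - e)) (hzb : (Zb : ℝ) + τb ≤ C10 * (Kb : ℝ) ^ (1 - e))
    (hQ : Qa ≤ Qb) (hK : Kb ≤ Ka)
    (hKθ : (Ka : ℝ) * (Qa : ℝ) ^ θ ≤ A' * Kb * (Qb : ℝ) ^ θ) :
    (1 / ((Ka : ℝ) * Kb)) * ∫ x in (0 : ℝ)..1,
        (∑ q ∈ Sa, f q * fej Ka ((q : ℝ) * x - γ)) * (∑ r ∈ Sb, f r * fej Kb ((r : ℝ) * x - γ)) ≤
      ((∑ q ∈ Sa, f q) / Ka) * ((∑ r ∈ Sb, f r) / Kb) +
        2 * C7H C C9 C10 * Real.sqrt (((∑ q ∈ Sa, f q) / Ka) * ((∑ r ∈ Sb, f r) / Kb)) *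
          (Real.sqrt A' * ((Qa : ℝ) / Qb) ^ ((1 : ℝ) / 4 - θ / 2)) := by
  have hKa' : (0 : ℝ) < Ka := by exact_mod_cast hKa
  have hKb' : (0 : ℝ) < Kb := by exact_mod_cast hKb
  have hQa' : (0 : ℝ) < Qa := by exact_mod_cast hQa
  have hQb' : (0 : ℝ) < Qb := by exact_mod_cast hQb
  have hZa' : (0 : ℝ) < Za := by exact_mod_cast hZa1
  have hZb' : (0 : ℝ) < Zb := by exact_mod_cast hZb1
  have hQ' : (Qa : ℝ) ≤ Qb := by exact_mod_cast hQ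
  have he0 : 0 < e := by linarith
  have hτa0 : 0 ≤ τa := by linarith
  have hτb0 : 0 ≤ τb := by linarith
  have hA0 : 0 < A' := by linarith
  obtain ⟨y, hy⟩ : ∃ y, y = min ((Kb : ℝ) / Qa) ((Ka : ℝ) / Qb) := ⟨_, rfl⟩
  have hy0 : 0 < y := by rw [hy]; exact lt_min (by positivity) (by positivity)
  have hy1 : y ≤ (Ka : ℝ) / Qb := by rw [hy]; exact min_le_right _ _
  have hy1' : y * Qb ≤ Ka := by
    have := mul_le_mul_of_nonneg_right hy1 hQb'.le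
    rwa [div_mul_cancel₀ _ hQb'.ne'] at this
  obtain ⟨ρ, hρ⟩ : ∃ ρ, ρ = (Qa : ℝ) / Qb := ⟨_, rfl⟩
  rw [← hρ]
  have hρ0 : 0 < ρ := by rw [hρ]; positivity
  have hρ1 : ρ ≤ 1 := by rw [hρ, div_le_one hQb']; exact hQ'
  have hu : y * Qa / Ka ≤ ρ := by
    rw [hρ, div_le_div_iff₀ hKa' hQb']
    nlinarith [mul_le_mul_of_nonneg_left hy1' hQa'.le]
  have hv : y * Qb / Kb ≤ (Ka : ℝ) / Kb := div_le_div_of_nonneg_right hy1' hKb'.le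
  obtain ⟨w, hw⟩ : ∃ w, w = ρ ^ θ := ⟨_, rfl⟩
  have hw0 : 0 < w := by rw [hw]; positivity
  have hw1 : w ≤ 1 := by rw [hw]; exact Real.rpow_le_one hρ0.le hρ1 hθ0.le
  have hsw : (Ka : ℝ) / Kb ≤ A' / w := by
    rw [le_div_iff₀ hw0, hw, hρ, Real.div_rpow hQa'.le hQb'.le]
    have hQbθ : 0 < (Qb : ℝ) ^ θ := by positivity
    rw [div_mul_div_comm, div_le_iff₀ (by positivity)]
    linarith [hKθ]
  have hA1 : 1 ≤ A' / w := by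
    rw [le_div_iff₀ hw0]; linarith
  obtain ⟨Ra, hRa⟩ : ∃ Ra, Ra = (3 + 48 * C) * y * Qa + 3 * τa * Qa * min y (1 / (Za : ℝ)) +
      16 * C * (Za + τa) * (y * Qa) ^ e := ⟨_, rfl⟩
  obtain ⟨Rb, hRb⟩ : ∃ Rb, Rb = (3 + 48 * C) * y * Qb + 3 * τb * Qb * min y (1 / (Zb : ℝ)) +
      16 * C * (Zb + τb) * (y * Qb) ^ e := ⟨_, rfl⟩
  have hb := pair_bound_w γ C e τa τb hC he0 hR hnz hτa0 hτb0 Ka Kb Qa Qb Za Zb
    hKa hKb hQa hQb hZa1 hZb1 hZa hZb Sa Sb hSa hSb f hf0 hf1 hσa hσb hτa' hτb' y Ra Rb hy hRa hRb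
  have hC7 : 0 ≤ C7H C C9 C10 := by
    unfold C7H
    have : 0 ≤ Real.sqrt C9 := Real.sqrt_nonneg _
    positivity
  have hRa0 : 0 ≤ Ra := by
    rw [hRa]
    have hm : 0 ≤ min y (1 / (Za : ℝ)) := le_min hy0.le (by positivity)
    positivity
  have hRb0 : 0 ≤ Rb := by
    rw [hRb]
    have hm : 0 ≤ min y (1 / (Zb : ℝ)) := le_min hy0.le (by positivity)
    positivity
  have hRa1 : Ra / Ka ≤ C7H C C9 C10 * Real.sqrt ρ := by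
    have h1 := R_div_le_w C C9 C10 e τa Ka Qa Za y hC hC9 hC10 he hτa0 hKa' hQa' hZa' hy0
      (hu.trans hρ1) hsa hza
    rw [← hRa] at h1
    exact h1.trans (mul_le_mul_of_nonneg_left (Real.sqrt_le_sqrt hu) hC7)
  have hRb1 : Rb / Kb ≤ C7H C C9 C10 * (A' / w) := by
    rcases le_total (y * Qb / Kb) 1 with hv1 | hv1
    · have h1 := R_div_le_w C C9 C10 e τb Kb Qb Zb y hC hC9 hC10 he hτb0 hKb' hQb' hZb' hy0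
        hv1 hsb hzb
      rw [← hRb] at h1
      have h2 : Real.sqrt (y * Qb / Kb) ≤ 1 := Real.sqrt_le_one.2 hv1
      exact h1.trans (mul_le_mul_of_nonneg_left (h2.trans hA1) hC7)
    · have h1 := R_div_le_big C C9 C10 e τb Kb Qb Zb y hC hC9 hC10 he he1 hτb0 hKb' hQb' hZb' hy0
        hv1 hsb hzb
      rw [← hRb] at h1
      exact h1.trans (mul_le_mul_of_nonneg_left (hv.trans hsw) hC7)
  obtain ⟨P, hP⟩ : ∃ P, P = ρ ^ ((1 : ℝ) / 4 - θ / 2) := ⟨_, rfl⟩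
  rw [← hP]
  have hP0 : 0 ≤ P := by rw [hP]; positivity
  have hP2 : P ^ 2 = Real.sqrt ρ / w := by
    rw [hP, hw, Real.sqrt_eq_rpow, ← Real.rpow_natCast, ← Real.rpow_mul hρ0.le,
      ← Real.rpow_sub hρ0]
    congr 1
    push_cast
    ring
  have hprod : (Ra / Ka) * (Rb / Kb) ≤ (C7H C C9 C10 * (Real.sqrt A' * P)) ^ 2 := by
    have hA'2 : Real.sqrt A' ^ 2 = A' := Real.sq_sqrt hA0.le
    have e2 : (C7H C C9 C10 * (Real.sqrt A' * P)) ^ 2 =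
        (C7H C C9 C10 * Real.sqrt ρ) * (C7H C C9 C10 * (A' / w)) := by
      rw [mul_pow, mul_pow, hA'2, hP2]
      ring
    rw [e2]
    exact mul_le_mul hRa1 hRb1 (by positivity) (by positivity)
  have hmasa : 0 ≤ ∑ q ∈ Sa, f q := Finset.sum_nonneg fun q _ => hf0 q
  have hmasb : 0 ≤ ∑ r ∈ Sb, f r := Finset.sum_nonneg fun r _ => hf0 r
  have hD : 0 ≤ C7H C C9 C10 * (Real.sqrt A' * P) := by positivity
  have hmain := sqrt_pair_le2 (∑ q ∈ Sa, f q) (∑ r ∈ Sb, f r) Ra Rb Ka Kb _ hmasa hmasb hRa0 hRb0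
    hKa' hKb' hD hprod
  have hpos : 0 ≤ 1 / ((Ka : ℝ) * Kb) := by positivity
  have h1 := mul_le_mul_of_nonneg_left hb hpos
  have e' : 1 / ((Ka : ℝ) * Kb) * ((∑ q ∈ Sa, f q) * (∑ r ∈ Sb, f r) +
      2 * (Real.sqrt ((∑ q ∈ Sa, f q) * Ra) * Real.sqrt ((∑ r ∈ Sb, f r) * Rb))) =
      ((∑ q ∈ Sa, f q) / Ka) * ((∑ r ∈ Sb, f r) / Kb) +
        2 * ((1 / ((Ka : ℝ) * Kb)) *
          (Real.sqrt ((∑ q ∈ Sa, f q) * Ra) * Real.sqrt ((∑ r ∈ Sb, f r) * Rb))) := by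
    field_simp
  rw [e'] at h1
  refine h1.trans ?_
  have e3 : 2 * C7H C C9 C10 * Real.sqrt (((∑ q ∈ Sa, f q) / Ka) * ((∑ r ∈ Sb, f r) / Kb)) *
      (Real.sqrt A' * P) =
      2 * (Real.sqrt (((∑ q ∈ Sa, f q) / Ka) * ((∑ r ∈ Sb, f r) / Kb)) *
        (C7H C C9 C10 * (Real.sqrt A' * P))) := by ring
  rw [e3]
  linarith [hmain]

end Vale.Agent.Lib.P028J
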